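import Crest.Agent.R247.A.Meas

/-! # Row 247, block A: the metric atlas of a Riemannian manifold, distances in charts (helper70) -/

set_option autoImplicit false
set_option linter.unusedSectionVars false
set_option linter.unusedVariables false
open MeasureTheory Filter Set Metric Matrix
open scoped ENNReal NNReal Topology ContDiff
open Crest.GeometryTopology.CoordMetric

noncomputable section
namespace Crest.Agent.R247.A
universe u

open Bundle Crest.GeometryTopology.ChartCurvature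
open scoped Manifold

variable {n : ℕ}

theorem quad_eq (g : MetricField n) (y v : E n) : quadForm g y v = v.ofLp ⬝ᵥ g y *ᵥ v.ofLp := by
  simp only [quadForm, dotProduct, mulVec, Finset.mul_sum]
  exact Finset.sum_congr rfl fun _ _ => Finset.sum_congr rfl fun _ _ => by ring

theorem exists_A {g : MetricField n} {y : E n} (h : (g y).PosSemidef) :
    ∃ A : E n →L[ℝ] E n, ∀ v, ‖A v‖ ^ 2 = quadForm g y v := by
  obtain ⟨B, hB⟩ := exists_sqrt h
  refine ⟨LinearMap.toContinuousLinearMap (Matrix.toEuclideanLin B), fun v => ?_⟩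
  rw [quad_eq, ← hB, ← mulVec_mulVec, dotProduct_mulVec, vecMul_transpose, EuclideanSpace.real_norm_sq_eq]
  simp only [dotProduct, sq]
  rfl

theorem quad_near {g : MetricField n} {U : Set (E n)} (hg : IsRiemannianOn g U) {y₀ : E n} (hy : y₀ ∈ U) {η : ℝ}
    (hη : 0 < η) : ∀ᶠ y in 𝓝 y₀, ∀ v, quadForm g y₀ v ≤ (1 + η) * quadForm g y v ∧
      quadForm g y v ≤ (1 + η) * quadForm g y₀ v := by
  obtain ⟨A, hA⟩ := exists_A (hg.posDef _ hy).posSemidef
  obtain ⟨K, hK0, hK⟩ := LinearMap.exists_antilipschitzWith (A : E n →ₗ[ℝ] E n) (LinearMap.ker_eq_bot'.2 fun v hv => by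
    by_contra h0
    have h1 := (hg.posDef _ hy).dotProduct_mulVec_pos (x := v.ofLp) (by simpa using h0)
    rw [star_trivial, ← quad_eq, ← hA, show A v = 0 from hv] at h1
    simp at h1)
  have hK' : (0 : ℝ) < K := hK0
  set ε := η / (1 + η) / ((n ^ 2 + 1) * K ^ 2) with hε
  have hε0 : 0 < ε := by positivity
  have h1 : ∀ᶠ y in 𝓝 y₀, ∀ i j, |g y i j - g y₀ i j| < ε := by
    simp only [eventually_all]
    exact fun i j => Metric.tendsto_nhds.1 (dfa hg.isOpen (hg.contDiffOn i j) hy).continuousAt ε hε0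
  filter_upwards [h1] with y h v
  have h2 : ‖v‖ ≤ K * ‖A v‖ := ZeroHomClass.bound_of_antilipschitz _ hK v
  have h3 : |quadForm g y v - quadForm g y₀ v| ≤ n ^ 2 * (ε * ‖v‖ ^ 2) := by
    simp only [quadForm, ← Finset.sum_sub_distrib]
    refine (Finset.abs_sum_le_sum_abs _ _).trans ((Finset.sum_le_sum fun i _ =>
      (Finset.abs_sum_le_sum_abs _ _).trans (Finset.sum_le_sum (g := fun _ => ε * ‖v‖ ^ 2) fun j _ => ?_)).trans_eq ?_)
    · rw [← sub_mul, ← sub_mul, abs_mul, abs_mul, mul_assoc, sq]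
      gcongr
      · exact (h i j).le
      · exact PiLp.norm_apply_le v i
      · exact PiLp.norm_apply_le v j
    · simp; ring
  have h0 : 0 ≤ quadForm g y₀ v := by rw [← hA]; positivity
  have h4 : n ^ 2 * (ε * ‖v‖ ^ 2) ≤ η / (1 + η) * quadForm g y₀ v := by
    have : η / (1 + η) = (n ^ 2 + 1) * (ε * K ^ 2) := by rw [hε]; field_simp
    rw [this, ← hA, mul_assoc, mul_assoc, ← mul_pow]
    gcongr
    linarith
  obtain ⟨h5, h6⟩ := abs_le.1 (h3.trans h4)
  have h7 : η / (1 + η) ≤ η := div_le_self hη.le (by linarith)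
  have h8 : (1 + η) * (η / (1 + η)) = η := by field_simp
  constructor
  · nlinarith [mul_le_mul_of_nonneg_left h5 (show 0 ≤ 1 + η by linarith)]
  · nlinarith

variable {M : Type u} [MetricSpace M] [ChartedSpace (E n) M] [IsManifold 𝓘(ℝ, E n) ∞ M]
  [RiemannianBundle (fun x : M => TangentSpace 𝓘(ℝ, E n) x)]
  [IsContMDiffRiemannianBundle 𝓘(ℝ, E n) ∞ (E n) (fun x : M => TangentSpace 𝓘(ℝ, E n) x)]

theorem mfd_chart (x : M) : (chartAt (E n) x).MDifferentiable 𝓘(ℝ, E n) 𝓘(ℝ, E n) := by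
  have : IsManifold 𝓘(ℝ, E n) 1 M := IsManifold.of_le (n := ∞) (by simp)
  exact mdifferentiable_chart x

theorem push (x : M) (u : E n) :
    ContMDiffOn 𝓘(ℝ, E n) 𝓘(ℝ, E n).tangent ∞ (fun y => (TotalSpace.mk' (E n) ((chartAt (E n) x).symm y)
      (mfderiv 𝓘(ℝ, E n) 𝓘(ℝ, E n) (chartAt (E n) x).symm y u) : TangentBundle 𝓘(ℝ, E n) M))
      (chartAt (E n) x).target := by
  have h1 := (contMDiffOn_chart_symm (I := 𝓘(ℝ, E n)) (n := ∞) (x := x)).contMDiffOn_tangentMapWithin
    (m := ∞) le_rfl (chartAt (E n) x).open_target.uniqueMDiffOn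
  have h2 : ContMDiff 𝓘(ℝ, E n) 𝓘(ℝ, E n).tangent ∞
      (fun y : E n => (TotalSpace.mk' (E n) y u : TangentBundle 𝓘(ℝ, E n) (E n))) :=
    (contMDiff_vectorSpace_iff_contDiff (V := fun _ => u)).2 contDiff_const
  refine (h1.comp h2.contMDiffOn fun y hy => hy).congr fun y hy => ?_
  simp only [Function.comp, tangentMapWithin]
  rw [mfderivWithin_of_isOpen (chartAt (E n) x).open_target hy]

theorem inner_D (x : M) (y u v : E n) :
    inner ℝ (mfderiv 𝓘(ℝ, E n) 𝓘(ℝ, E n) (chartAt (E n) x).symm y u)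
      (mfderiv 𝓘(ℝ, E n) 𝓘(ℝ, E n) (chartAt (E n) x).symm y v) = u.ofLp ⬝ᵥ chartMetric n M x y *ᵥ v.ofLp := by
  have key : ∀ (L : E n →L[ℝ] TangentSpace 𝓘(ℝ, E n) ((chartAt (E n) x).symm y)), inner ℝ (L u) (L v) =
      ∑ i, u i * ∑ j, inner ℝ (L (EuclideanSpace.single i 1)) (L (EuclideanSpace.single j 1)) * v j := fun L => by
    rw [clm_sum L u, clm_sum L v]
    simp only [sum_inner, real_inner_smul_left]
    simp only [inner_sum, real_inner_smul_right, mul_comm (v _)]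
  exact key _

theorem riem_chart (x : M) : IsRiemannianOn (chartMetric n M x) (chartAt (E n) x).target := by
  refine ⟨(chartAt (E n) x).open_target,
    fun i j => contMDiffOn_iff_contDiffOn.1 (ContMDiffOn.inner_bundle (F := E n)
      (E := fun x : M => TangentSpace 𝓘(ℝ, E n) x) (push (n := n) x _) (push (n := n) x _)), fun y hy => ?_⟩
  rw [Matrix.posDef_iff_dotProduct_mulVec]
  refine ⟨?_, fun w hw => ?_⟩
  · ext i j
    simp only [conjTranspose_apply, star_trivial, chartMetric, of_apply]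
    exact real_inner_comm _ _
  · have hw' : (WithLp.toLp 2 w : E n) ≠ 0 := fun e => hw (by simpa using congrArg WithLp.ofLp e)
    have hinj := (mfd_chart (n := n) x).symm.mfderiv_injective (x := y) hy
    exact (real_inner_self_pos.2 fun e => hw' (hinj (e.trans (map_zero _).symm))).trans_eq (inner_D x y _ _)

variable (n M) in
/-- the metric atlas of `M` -/
def atl : Atl n M where
  ch := chartAt (E n)
  gm := chartMetric n M
  mem := mem_chart_source (E n)
  iso x x' := by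
    have hW := (chartAt (E n) x).isOpen_inter_preimage_symm (chartAt (E n) x').open_source
    have hs : ContDiffOn ℝ ∞ (fun z => chartAt (E n) x' ((chartAt (E n) x).symm z)) _ :=
      contMDiffOn_iff_contDiffOn.1 ((contMDiffOn_chart (I := 𝓘(ℝ, E n)) (n := ∞) (x := x')).comp'
        (contMDiffOn_chart_symm (I := 𝓘(ℝ, E n)) (x := x)))
    refine ⟨riem_mono (riem_chart x) hW inter_subset_left, riem_chart x', hs,
      fun z hz => (chartAt (E n) x').map_source hz.2, fun z hz => ?_⟩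
    have hd := dfa hW hs hz
    have hev : (chartAt (E n) x).symm =ᶠ[𝓝 z]
        (chartAt (E n) x').symm ∘ fun z => chartAt (E n) x' ((chartAt (E n) x).symm z) :=
      eventually_of_mem (hW.mem_nhds hz) fun w hw => ((chartAt (E n) x').left_inv hw.2).symm
    have h2 := ((mfd_chart x').mdifferentiableAt_symm ((chartAt (E n) x').map_source hz.2)).hasMFDerivAt
    have h3 := ((HasMFDerivAt.comp z h2 hd.hasFDerivAt.hasMFDerivAt).congr_of_eventuallyEq hev).mfderiv
    have h4 : ∀ (p p' : M) (_ : p = p') (a b : E n), inner ℝ (show TangentSpace 𝓘(ℝ, E n) p from a) b =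
        inner ℝ (show TangentSpace 𝓘(ℝ, E n) p' from a) b := by
      rintro p _ rfl a b
      rfl
    ext i j
    rw [chartMetric, of_apply, h3]
    refine (h4 _ _ hev.eq_of_nhds _ _).trans ((inner_D x' _ _ _).trans ?_)
    simp only [mul_apply, transpose_apply, jac, of_apply, pd_proj hd, dotProduct, mulVec, Finset.sum_mul,
      Finset.mul_sum, mul_assoc]
    exact Finset.sum_comm

theorem speed {x : M} {γ : ℝ → M} {c : ℝ → E n} {c' : E n} {t : ℝ} (e : γ =ᶠ[𝓝 t] (chartAt (E n) x).symm ∘ c)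
    (hc : HasDerivAt c c' t) (ht : c t ∈ (chartAt (E n) x).target) :
    ‖mfderiv 𝓘(ℝ, ℝ) 𝓘(ℝ, E n) γ t 1‖ₑ = ENNReal.ofReal √(quadForm (chartMetric n M x) (c t) c') := by
  have h3 := ((HasMFDerivAt.comp t ((mfd_chart x).mdifferentiableAt_symm ht).hasMFDerivAt
    hc.hasFDerivAt.hasMFDerivAt).congr_of_eventuallyEq e).mfderiv
  have h4 : ∀ (p p' : M) (_ : p = p') (a : E n), ‖show TangentSpace 𝓘(ℝ, E n) p from a‖ₑ =
      ‖show TangentSpace 𝓘(ℝ, E n) p' from a‖ₑ := by
    rintro p _ rfl a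
    rfl
  rw [h3, quad_eq, ← inner_D, ← norm_eq_sqrt_real_inner, ofReal_norm]
  refine (h4 _ _ e.eq_of_nhds _).trans ?_
  congr 1
  exact congrArg (mfderiv 𝓘(ℝ, E n) 𝓘(ℝ, E n) (chartAt (E n) x).symm (c t)) (one_smul ℝ c')

variable [IsRiemannianManifold 𝓘(ℝ, E n) M]

theorem edist_le {γ : ℝ → M} (hγ : ContMDiff 𝓘(ℝ, ℝ) 𝓘(ℝ, E n) 1 γ) {s t : ℝ} (h : s ≤ t) :
    edist (γ s) (γ t) ≤ Manifold.pathELength 𝓘(ℝ, E n) γ s t := by
  rw [IsRiemannianManifold.out (I := 𝓘(ℝ, E n))]
  exact Manifold.riemannianEDist_le_pathELength hγ.contMDiffOn rfl rfl h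

variable (n) in
theorem exists_path {x y : M} {r : ℝ} (h : dist x y < r) : ∃ γ : ℝ → M, γ 0 = x ∧ γ 1 = y ∧
    ContMDiff 𝓘(ℝ, ℝ) 𝓘(ℝ, E n) 1 γ ∧ Manifold.pathELength 𝓘(ℝ, E n) γ 0 1 < ENNReal.ofReal r := by
  rw [← edist_lt_ofReal, IsRiemannianManifold.out (I := 𝓘(ℝ, E n))] at h
  obtain ⟨γ, h0, h1, h2, h3, -⟩ := Manifold.exists_lt_locally_constant_of_riemannianEDist_lt h zero_lt_one
  exact ⟨γ, h0, h1, h2, h3⟩

variable (n) in
include n in
theorem mid (x y : M) (ε : ℝ) (hε : 0 < ε) :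
    ∃ z, dist x z ≤ dist x y / 2 + ε ∧ dist z y ≤ dist x y / 2 + ε := by
  obtain ⟨γ, rfl, rfl, hγ, hl⟩ := exists_path n (lt_add_of_pos_right (dist x y) hε)
  have hd := dist_nonneg (x := γ 0) (y := γ 1)
  obtain ⟨t, ht, e⟩ := intermediate_value_Icc zero_le_one
    (continuous_const.dist hγ.continuous (f := fun _ => γ 0)).continuousOn
    (show dist (γ 0) (γ 1) / 2 ∈ _ from ⟨by rw [dist_self]; linarith, by linarith⟩)
  have h1 := (add_le_add (edist_le hγ ht.1) (edist_le hγ ht.2)).trans_lt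
    ((Manifold.pathELength_add ht.1 ht.2).trans_lt hl)
  rw [edist_dist, edist_dist, ← ENNReal.ofReal_add dist_nonneg dist_nonneg,
    ENNReal.ofReal_lt_ofReal_iff (by linarith)] at h1
  exact ⟨γ t, by linarith [show dist (γ 0) (γ t) = _ from e], by linarith [show dist (γ 0) (γ t) = _ from e]⟩

theorem dist_ch (x : M) (y₀ : E n) (hy : y₀ ∈ (chartAt (E n) x).target) (η : ℝ) (hη : 0 < η) :
    ∀ᶠ p : E n × E n in 𝓝 (y₀, y₀), quadForm (chartMetric n M x) y₀ (p.1 - p.2) ≤
      (1 + η) * dist ((chartAt (E n) x).symm p.1) ((chartAt (E n) x).symm p.2) ^ 2 ∧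
      dist ((chartAt (E n) x).symm p.1) ((chartAt (E n) x).symm p.2) ^ 2 ≤
        (1 + η) * quadForm (chartMetric n M x) y₀ (p.1 - p.2) := by
  set φ := chartAt (E n) x with hφ
  obtain ⟨A, hA⟩ := exists_A ((riem_chart x).posDef _ hy).posSemidef
  obtain ⟨r, hr, hb⟩ := Metric.mem_nhds_iff.1 ((quad_near (riem_chart x) hy hη).and (φ.open_target.mem_nhds hy))
  have hz := φ.map_target hy
  obtain ⟨ρ, hρ, hb'⟩ := Metric.mem_nhds_iff.1 (inter_mem (φ.open_source.mem_nhds hz)
    ((φ.continuousAt hz).preimage_mem_nhds (by rw [φ.right_inv hy]; exact ball_mem_nhds y₀ hr)))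
  have ev : ∀ᶠ y in 𝓝 y₀, y ∈ ball y₀ r ∧ φ.symm y ∈ ball (φ.symm y₀) (ρ / 3) :=
    (show ∀ᶠ y in 𝓝 y₀, y ∈ ball y₀ r from ball_mem_nhds y₀ hr).and
      ((φ.continuousAt_symm hy).preimage_mem_nhds (ball_mem_nhds _ (by linarith)))
  have h1η : 0 ≤ 1 + η := by linarith
  rw [nhds_prod_eq]
  filter_upwards [ev.prod_mk ev] with ⟨p, q⟩ ⟨⟨hp, hp'⟩, hq, hq'⟩
  rw [mem_ball] at hp' hq'
  simp only at hp hp' hq hq' ⊢
  rw [dist_comm]
  constructor
  · have key : ∀ s ∈ Ioo (dist (φ.symm q) (φ.symm p)) (2 * ρ / 3), ‖A (p - q)‖ ≤ √(1 + η) * s := fun s hs => by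
      obtain ⟨γ, h0, h1, hγ, hl⟩ := exists_path n hs.1
      have hm : ∀ t ∈ Icc (0 : ℝ) 1, γ t ∈ φ.source ∩ φ ⁻¹' ball y₀ r := fun t ht => by
        have := ((edist_le hγ ht.1).trans (Manifold.pathELength_mono le_rfl ht.2)).trans_lt hl
        rw [edist_lt_ofReal, h0] at this
        exact hb' (mem_ball.2 (by linarith [dist_triangle_left (γ t) (φ.symm y₀) (φ.symm q), hs.2]))
      have hc : ∀ t ∈ Icc (0 : ℝ) 1, ContDiffAt ℝ 1 (φ ∘ γ) t := fun t ht => contMDiffAt_iff_contDiffAt.1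
        ((((contMDiffOn_chart (I := 𝓘(ℝ, E n)) (n := ∞) (x := x)).of_le (by simp)).contMDiffAt
          (φ.open_source.mem_nhds (hm t ht).1)).comp t hγ.contMDiffAt)
      have h2 := enorm_sub_le_lintegral_deriv_of_contDiffOn_Icc (f := A ∘ φ ∘ γ)
        (fun t ht => (A.contDiff.contDiffAt.comp t (hc t ht)).contDiffWithinAt) zero_le_one
      simp only [Function.comp_apply, h0, h1, φ.right_inv (hb hp).2, φ.right_inv (hb hq).2, ← map_sub] at h2
      have h3 : ∫⁻ t in Icc (0 : ℝ) 1, ‖deriv (A ∘ φ ∘ γ) t‖ₑ ≤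
          ENNReal.ofReal √(1 + η) * Manifold.pathELength 𝓘(ℝ, E n) γ 0 1 := by
        rw [Manifold.pathELength_eq_lintegral_mfderiv_Icc, ← lintegral_const_mul' _ _ ENNReal.ofReal_ne_top]
        refine setLIntegral_mono' measurableSet_Icc fun t ht => ?_
        have hd := ((hc t ht).differentiableAt one_ne_zero).hasDerivAt
        rw [speed (x := x) (eventually_of_mem (hγ.continuous.continuousAt.preimage_mem_nhds
          (φ.open_source.mem_nhds (hm t ht).1)) fun s hs => (φ.left_inv hs).symm) hd (φ.map_source (hm t ht).1),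
          (A.hasFDerivAt.comp_hasDerivAt t hd).deriv, ← ENNReal.ofReal_mul (Real.sqrt_nonneg _),
          ← Real.sqrt_mul h1η, ← ofReal_norm]
        exact ENNReal.ofReal_le_ofReal (Real.le_sqrt_of_sq_le ((hA _).trans_le ((hb (hm t ht).2).1 _).1))
      have h4 := (h2.trans h3).trans (mul_le_mul_right hl.le _)
      rwa [← ENNReal.ofReal_mul (Real.sqrt_nonneg _), ← ofReal_norm, ENNReal.ofReal_le_ofReal_iff
        (mul_nonneg (Real.sqrt_nonneg _) (dist_nonneg.trans hs.1.le))] at h4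
    have h5 : ‖A (p - q)‖ ≤ √(1 + η) * dist (φ.symm q) (φ.symm p) :=
      ge_of_tendsto ((continuous_const_mul √(1 + η)).continuousAt.tendsto.mono_left nhdsWithin_le_nhds)
        (eventually_of_mem (Ioo_mem_nhdsGT (show dist (φ.symm q) (φ.symm p) < 2 * ρ / 3 by
          linarith [dist_triangle_right (φ.symm q) (φ.symm p) (φ.symm y₀)])) key)
    rw [← hA, ← Real.sq_sqrt h1η, ← mul_pow]
    exact pow_le_pow_left₀ (norm_nonneg _) h5 2
  · have hm : ∀ t ∈ Icc (0 : ℝ) 1, q + t • (p - q) ∈ ball y₀ r := fun t ht =>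
      (convex_ball y₀ r).add_smul_sub_mem hq hp ht
    have hc : ContMDiff 𝓘(ℝ, ℝ) 𝓘(ℝ, E n) 1 fun t : ℝ => q + t • (p - q) := contMDiff_iff_contDiff.2 (by fun_prop)
    have h1 := Manifold.riemannianEDist_le_pathELength (γ := φ.symm ∘ fun t : ℝ => q + t • (p - q))
      (((contMDiffOn_chart_symm (I := 𝓘(ℝ, E n)) (n := ∞) (x := x)).of_le (by simp)).comp hc.contMDiffOn
        fun t ht => (hb (hm t ht)).2) (x := φ.symm q) (y := φ.symm p) (by simp) (by simp) zero_le_one
    have h0 : 0 ≤ (1 + η) * quadForm (chartMetric n M x) y₀ (p - q) := by rw [← hA]; positivity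
    rw [← IsRiemannianManifold.out, Manifold.pathELength_eq_lintegral_mfderiv_Icc] at h1
    have h2 := h1.trans (setLIntegral_mono' (g := fun _ => ENNReal.ofReal
      √((1 + η) * quadForm (chartMetric n M x) y₀ (p - q))) measurableSet_Icc fun t ht => by
        rw [speed (x := x) EventuallyEq.rfl (c' := p - q)
          (by simpa using ((hasDerivAt_id t).smul_const (p - q)).const_add q) (hb (hm t ht)).2]
        exact ENNReal.ofReal_le_ofReal (Real.sqrt_le_sqrt ((hb (hm t ht)).1 _).2))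
    rw [setLIntegral_const, Real.volume_Icc, sub_zero, ENNReal.ofReal_one, mul_one,
      edist_le_ofReal (Real.sqrt_nonneg _)] at h2
    rw [← Real.sq_sqrt h0]
    exact pow_le_pow_left₀ dist_nonneg h2 2

end Crest.Agent.R247.A
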