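import Crest.Agent.R247.A.Boch

/-! # Row 247, block A: metric atlases and their calculus (helper70) -/

set_option autoImplicit false
set_option linter.unusedSectionVars false
set_option linter.unusedVariables false
open MeasureTheory Filter Set Metric Matrix
open scoped ENNReal NNReal Topology ContDiff
open Crest.GeometryTopology.CoordMetric

noncomputable section
namespace Crest.Agent.R247.A
universe u

/-- a metric atlas -/
structure Atl (n : ℕ) (M : Type u) [TopologicalSpace M] where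
  ch : M → OpenPartialHomeomorph M (E n)
  gm : M → MetricField n
  mem : ∀ x, x ∈ (ch x).source
  iso : ∀ x x', Iso (gm x) ((ch x).target ∩ (ch x).symm ⁻¹' (ch x').source) (gm x') (ch x').target
    fun z => ch x' ((ch x).symm z)

open scoped MatrixOrder in
theorem exists_sqrt {n : ℕ} {A : Mat n} (h : A.PosSemidef) : ∃ B : Mat n, Bᵀ * B = A := by
  obtain ⟨B, rfl⟩ := CStarAlgebra.nonneg_iff_eq_star_mul_self.mp h.nonneg
  exact ⟨B, by simp [star_eq_conjTranspose]⟩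

namespace Atl
variable {n : ℕ} {M : Type u} [MetricSpace M] (a : Atl n M)

theorem riem (x : M) : IsRiemannianOn (a.gm x) (a.ch x).target := (a.iso x x).r'

theorem cmem (x : M) : a.ch x x ∈ (a.ch x).target := (a.ch x).map_source (a.mem x)

theorem symm_c (x : M) : (a.ch x).symm (a.ch x x) = x := (a.ch x).left_inv (a.mem x)

theorem op (x : M) : IsOpen (a.ch x).target := (a.ch x).open_target

/-- orthonormal frame -/
def B (x : M) : Mat n := (exists_sqrt ((a.riem x).posDef _ (a.cmem x)).inv.posSemidef).choose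

theorem B_spec (x : M) : (a.B x)ᵀ * a.B x = (a.gm x (a.ch x x))⁻¹ :=
  (exists_sqrt ((a.riem x).posDef _ (a.cmem x)).inv.posSemidef).choose_spec

/-- a function in the chart at `x` -/
def hat (x : M) (f : M → ℝ) (z : E n) : ℝ := f ((a.ch x).symm z)

def Sm (I : Set ℝ) (F : ℝ → M → ℝ) : Prop :=
  ∀ x, ContDiffOn ℝ ∞ (fun p : ℝ × E n => F p.1 ((a.ch x).symm p.2)) (I ×ˢ (a.ch x).target)

def S (f : M → ℝ) : Prop := a.Sm univ fun _ => f

def grad (f : M → ℝ) (x : M) : V n := a.B x *ᵥ dv (a.hat x f) (a.ch x x)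

def hess (f : M → ℝ) (x : M) : Mat n := a.B x * cH (a.gm x) (a.hat x f) (a.ch x x) * (a.B x)ᵀ

def ric0 (x : M) : Mat n := a.B x * Matrix.of (ricci (a.gm x) (a.ch x x)) * (a.B x)ᵀ

def ric (x : M) : Mat n := (1 / 2 : ℝ) • (a.ric0 x + (a.ric0 x)ᵀ)

def Γ (f g : M → ℝ) (x : M) : ℝ := a.grad f x ⬝ᵥ a.grad g x

def Δ (f : M → ℝ) (x : M) : ℝ := (a.hess f x).trace

variable {a} {I J : Set ℝ} {F G : ℝ → M → ℝ} {f g : M → ℝ} {t : ℝ}

theorem Sm.hat (h : a.Sm I F) (ht : t ∈ I) (x : M) : ContDiffOn ℝ ∞ (a.hat x (F t)) (a.ch x).target :=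
  par_slice (h x) ht

theorem S.hat (h : a.S f) (x : M) : ContDiffOn ℝ ∞ (a.hat x f) (a.ch x).target := Sm.hat h (mem_univ 0) x

theorem S_of (h : ∀ x, ContDiffOn ℝ ∞ (a.hat x f) (a.ch x).target) : a.S f := fun x =>
  (h x).comp contDiffOn_snd fun _ hp => hp.2

theorem Sm.slice (h : a.Sm I F) (ht : t ∈ I) : a.S (F t) := S_of (h.hat ht)

theorem Sm.congr (h : a.Sm I F) (e : ∀ t ∈ I, G t = F t) : a.Sm I G := fun x =>
  (h x).congr fun p hp => by rw [e _ hp.1]

theorem Sm.cont (h : a.Sm I F) : ContinuousOn (fun p : ℝ × M => F p.1 p.2) (I ×ˢ univ) := by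
  rintro ⟨t, x⟩ ⟨ht, -⟩
  have h1 : ContinuousOn (fun p : ℝ × M => F p.1 p.2) (I ×ˢ (a.ch x).source) := by
    refine ((h x).continuousOn.comp (f := fun p : ℝ × M => (p.1, a.ch x p.2))
      (continuousOn_fst.prodMk ((a.ch x).continuousOn.comp continuousOn_snd fun p hp => hp.2))
      fun p hp => ⟨hp.1, (a.ch x).map_source hp.2⟩).congr fun p hp => ?_
    simp only [Function.comp_apply, (a.ch x).left_inv hp.2]
  refine (h1 _ ⟨ht, a.mem x⟩).mono_of_mem_nhdsWithin ?_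
  filter_upwards [self_mem_nhdsWithin, mem_nhdsWithin_of_mem_nhds
    (continuous_snd.continuousAt.preimage_mem_nhds ((a.ch x).open_source.mem_nhds (a.mem x)))] with p h1 h2
  exact ⟨h1.1, h2⟩

theorem S.cont (h : a.S f) : Continuous f :=
  continuousOn_univ.1 ((Sm.cont h).comp (f := fun x => ((0 : ℝ), x)) (by fun_prop) fun _ _ => ⟨trivial, trivial⟩)

theorem Sm.mul (h : a.Sm I F) (h' : a.Sm I G) : a.Sm I fun t x => F t x * G t x := fun x => (h x).mul (h' x)

theorem Sm.deriv (hI : IsOpen I) (h : a.Sm I F) (ht : t ∈ I) (x : M) :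
    HasDerivAt (fun s => F s x) (dt F t x) t := by
  have := par_dt_at (p := (t, a.ch x x)) (dfa (hI.prod (a.op x)) (h x) ⟨ht, a.cmem x⟩)
  simp only [a.symm_c] at this
  exact this.differentiableAt.hasDerivAt

theorem Sm.pd_dt (hI : IsOpen I) (h : a.Sm I F) (ht : t ∈ I) (x : M) (i : Fin n) :
    HasDerivAt (fun s => pderiv i (a.hat x (F s)) (a.ch x x)) (pderiv i (a.hat x (dt F t)) (a.ch x x)) t :=
  par_comm hI (a.op x) (h x) ht (a.cmem x) i

theorem Sm.grad_dt (hI : IsOpen I) (h : a.Sm I F) (ht : t ∈ I) (x : M) (i : Fin n) :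
    HasDerivAt (fun s => a.grad (F s) x i) (a.grad (dt F t) x i) t :=
  HasDerivAt.fun_sum (u := Finset.univ) fun j _ => (h.pd_dt hI ht x j).const_mul (a.B x i j)

theorem Sm.hess_dt (hI : IsOpen I) (h : a.Sm I F) (ht : t ∈ I) (x : M) (i j : Fin n) :
    HasDerivAt (fun s => a.hess (F s) x i j) (a.hess (dt F t) x i j) t := by
  have h1 : ∀ k l, HasDerivAt (fun s => cH (a.gm x) (a.hat x (F s)) (a.ch x x) k l)
      (cH (a.gm x) (a.hat x (dt F t)) (a.ch x x) k l) t := fun k l => by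
    have := par_comm hI (a.op x) (par_pd hI (a.op x) (h x) l) ht (a.cmem x) k
    rw [pd_congr (a.op x) (a.cmem x) fun z hz => (par_comm hI (a.op x) (h x) ht hz l).deriv] at this
    exact this.fun_sub (HasDerivAt.fun_sum fun b _ => (h.pd_dt hI ht x b).const_mul _)
  exact HasDerivAt.fun_sum (u := Finset.univ) fun l _ => (HasDerivAt.fun_sum (u := Finset.univ) fun k _ =>
    (h1 k l).const_mul (a.B x i k)).mul_const ((a.B x)ᵀ l j)

theorem Γ_c (f g : M → ℝ) (x : M) : a.Γ f g x = cΓ (a.gm x) (a.hat x f) (a.hat x g) (a.ch x x) := by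
  rw [Γ, grad, grad, cΓ, cX, ← a.B_spec, ← mulVec_mulVec, dotProduct_mulVec _ (a.B x)ᵀ, vecMul_transpose]

theorem Δ_c (f : M → ℝ) (x : M) : a.Δ f x = cΔ (a.gm x) (a.hat x f) (a.ch x x) := by
  rw [Δ, hess, cΔ, trace_mul_comm, ← Matrix.mul_assoc, a.B_spec]

theorem hat_tr (f : M → ℝ) {x x' : M} {y : E n} (hy : y ∈ (a.ch x).target ∩ (a.ch x).symm ⁻¹' (a.ch x').source) :
    (fun z => a.hat x' f (a.ch x' ((a.ch x).symm z))) =ᶠ[𝓝 y] a.hat x f :=
  eventually_of_mem ((a.iso x x').r.isOpen.mem_nhds hy) fun z hz => by simp only [hat, (a.ch x').left_inv hz.2]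

theorem Γ_ch (hf : a.S f) (hg : a.S g) (x : M) {y : E n} (hy : y ∈ (a.ch x).target) :
    a.hat x (a.Γ f g) y = cΓ (a.gm x) (a.hat x f) (a.hat x g) y := by
  have hy' : y ∈ (a.ch x).target ∩ (a.ch x).symm ⁻¹' (a.ch ((a.ch x).symm y)).source := ⟨hy, a.mem _⟩
  rw [hat, Γ_c, ← (a.iso x _).cΓ (hf.hat _) (hg.hat _) hy', cΓ_congr (hat_tr f hy') (hat_tr g hy')]

theorem Δ_ch (hf : a.S f) (x : M) {y : E n} (hy : y ∈ (a.ch x).target) :
    a.hat x (a.Δ f) y = cΔ (a.gm x) (a.hat x f) y := by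
  have hy' : y ∈ (a.ch x).target ∩ (a.ch x).symm ⁻¹' (a.ch ((a.ch x).symm y)).source := ⟨hy, a.mem _⟩
  rw [hat, Δ_c, ← (a.iso x _).cΔ (hf.hat _) hy', cΔ_congr (hat_tr f hy')]

theorem Γ_ev (hf : a.S f) (hg : a.S g) (x : M) :
    a.hat x (a.Γ f g) =ᶠ[𝓝 (a.ch x x)] cΓ (a.gm x) (a.hat x f) (a.hat x g) :=
  eventually_of_mem ((a.op x).mem_nhds (a.cmem x)) fun _ hy => Γ_ch hf hg x hy

theorem Δ_ev (hf : a.S f) (x : M) : a.hat x (a.Δ f) =ᶠ[𝓝 (a.ch x x)] cΔ (a.gm x) (a.hat x f) :=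
  eventually_of_mem ((a.op x).mem_nhds (a.cmem x)) fun _ hy => Δ_ch hf x hy

theorem Sm.Γ (hI : IsOpen I) (h : a.Sm I F) (h' : a.Sm I G) : a.Sm I fun t => a.Γ (F t) (G t) := fun x => by
  have s : ∀ {u : E n → ℝ}, ContDiffOn ℝ ∞ u (a.ch x).target →
      ContDiffOn ℝ ∞ (fun p : ℝ × E n => u p.2) (I ×ˢ (a.ch x).target) :=
    fun hu => hu.comp contDiffOn_snd fun _ hp => hp.2
  exact (ContDiffOn.sum (s := Finset.univ) fun i _ => (par_pd hI (a.op x) (h x) i).mul
    (ContDiffOn.sum (s := Finset.univ) fun j _ => (s (G_smooth (a.riem x) i j)).mul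
      (par_pd hI (a.op x) (h' x) j))).congr fun p hp => Γ_ch (h.slice hp.1) (h'.slice hp.1) x hp.2

theorem Sm.Δ (hI : IsOpen I) (h : a.Sm I F) : a.Sm I fun t => a.Δ (F t) := fun x => by
  have s : ∀ {u : E n → ℝ}, ContDiffOn ℝ ∞ u (a.ch x).target →
      ContDiffOn ℝ ∞ (fun p : ℝ × E n => u p.2) (I ×ˢ (a.ch x).target) :=
    fun hu => hu.comp contDiffOn_snd fun _ hp => hp.2
  have h1 := par_pd hI (a.op x) (h x)
  exact (ContDiffOn.sum (s := Finset.univ) fun i _ => ContDiffOn.sum (s := Finset.univ) fun j _ =>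
    (s (G_smooth (a.riem x) i j)).mul ((par_pd hI (a.op x) (h1 i) j).sub
      (ContDiffOn.sum (s := Finset.univ) fun l _ => (s (chr_smooth (a.riem x) l j i)).mul (h1 l)))).congr
    fun p hp => Δ_ch (h.slice hp.1) x hp.2

theorem S.dfa (hf : a.S f) (x : M) : DifferentiableAt ℝ (a.hat x f) (a.ch x x) :=
  A.dfa (a.op x) (hf.hat x) (a.cmem x)

theorem grad_add (hf : a.S f) (hg : a.S g) (x : M) : a.grad (fun y => f y + g y) x = a.grad f x + a.grad g x := by
  rw [grad, grad, grad, ← mulVec_add, ← dv_add (hf.dfa x) (hg.dfa x)]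
  rfl

theorem hess_add (hf : a.S f) (hg : a.S g) (x : M) : a.hess (fun y => f y + g y) x = a.hess f x + a.hess g x := by
  rw [hess, hess, hess, ← Matrix.add_mul, ← Matrix.mul_add, ← cH_add (a.op x) (hf.hat x) (hg.hat x) (a.cmem x)]
  rfl

theorem grad_comp {φ : ℝ → ℝ} {O : Set ℝ} (hf : a.S f) (hO : IsOpen O) (hφ : ContDiffOn ℝ ∞ φ O)
    (hm : ∀ y, f y ∈ O) (x : M) : a.grad (fun y => φ (f y)) x = deriv φ (f x) • a.grad f x := by
  have := dv_comp (hf.dfa x) (A.dfa hO hφ (hm _))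
  rw [hat, a.symm_c] at this
  rw [grad, grad, ← mulVec_smul, ← this]
  rfl

theorem hess_comp {φ : ℝ → ℝ} {O : Set ℝ} (hf : a.S f) (hO : IsOpen O) (hφ : ContDiffOn ℝ ∞ φ O)
    (hm : ∀ y, f y ∈ O) (x : M) : a.hess (fun y => φ (f y)) x =
      deriv φ (f x) • a.hess f x + deriv (deriv φ) (f x) • vecMulVec (a.grad f x) (a.grad f x) := by
  have := cH_comp (g := a.gm x) (a.op x) (hf.hat x) hO hφ (fun z _ => hm _) (a.cmem x)
  rw [hat, a.symm_c] at this
  rw [hess, show a.hat x (fun y => φ (f y)) = fun z => φ (a.hat x f z) from rfl, this, hess, grad,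
    Matrix.mul_add, Matrix.add_mul, Matrix.mul_smul, Matrix.mul_smul, Matrix.smul_mul, Matrix.smul_mul,
    mul_vecMulVec, vecMulVec_mul, vecMul_transpose]

theorem hat_congr {x : M} (e : f =ᶠ[𝓝 x] g) : a.hat x f =ᶠ[𝓝 (a.ch x x)] a.hat x g :=
  ((a.ch x).tendsto_symm (a.mem x)).eventually e

theorem grad_congr {x : M} (e : f =ᶠ[𝓝 x] g) : a.grad f x = a.grad g x := by
  rw [grad, grad, dv_congr (hat_congr e)]

theorem hess_congr {x : M} (e : f =ᶠ[𝓝 x] g) : a.hess f x = a.hess g x := by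
  rw [hess, hess, cH_congr (hat_congr e)]

theorem hess_symm (hf : a.S f) (x : M) : (a.hess f x).IsSymm := by
  rw [IsSymm, hess, transpose_mul, transpose_mul, transpose_transpose, cH_tr (a.riem x) (hf.hat x) (a.cmem x),
    Matrix.mul_assoc]

theorem grad_Γ (hf : a.S f) (hg : a.S g) (x : M) :
    a.grad (a.Γ f g) x = a.hess f x *ᵥ a.grad g x + a.hess g x *ᵥ a.grad f x := by
  rw [grad, dv_congr (Γ_ev hf hg x), dv_cΓ (a.riem x) (hf.hat x) (hg.hat x) (a.cmem x), mulVec_add]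
  simp only [hess, grad, cX, mulVec_mulVec, Matrix.mul_assoc, a.B_spec]

theorem ric_symm (x : M) : (a.ric x).IsSymm := by
  rw [IsSymm, ric, transpose_smul, transpose_add, transpose_transpose, add_comm]

theorem qf_ric (x : M) (v : V n) : qf (a.ric x) v =
    ∑ i, ∑ j, ricci (a.gm x) (a.ch x x) i j * ((a.B x)ᵀ *ᵥ v) i * ((a.B x)ᵀ *ᵥ v) j := by
  have h1 : qf (a.ric x) v = qf (a.ric0 x) v := by
    rw [qf, qf, ric, smul_mulVec, add_mulVec, dotProduct_smul, dotProduct_add, mulVec_transpose,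
      dotProduct_comm v (v ᵥ* _), ← dotProduct_mulVec, smul_eq_mul]
    ring
  rw [h1, qf, ric0, ← mulVec_mulVec, ← mulVec_mulVec, dotProduct_mulVec, ← mulVec_transpose]
  generalize (a.B x)ᵀ *ᵥ v = w
  simp only [dotProduct, mulVec, of_apply, Finset.mul_sum]
  exact Finset.sum_congr rfl fun _ _ => Finset.sum_congr rfl fun _ _ => by ring

theorem ric_ge {K : ℝ} (hK : ∀ x (v : E n), K * quadForm (a.gm x) (a.ch x x) v ≤
    ∑ i, ∑ j, ricci (a.gm x) (a.ch x x) i j * v i * v j) (x : M) (v : V n) :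
    -max (-K) 0 * (v ⬝ᵥ v) ≤ qf (a.ric x) v := by
  have h1 : a.B x * (a.gm x (a.ch x x) * (a.B x)ᵀ) = 1 := by
    rw [← Matrix.mul_assoc, mul_eq_one_comm, ← Matrix.mul_assoc, a.B_spec, G_g (a.riem x) (a.cmem x)]
  have h2 : quadForm (a.gm x) (a.ch x x) (WithLp.toLp 2 ((a.B x)ᵀ *ᵥ v)) = v ⬝ᵥ v := by
    rw [show v ⬝ᵥ v = v ⬝ᵥ (1 : Mat n) *ᵥ v by rw [one_mulVec], ← h1, ← mulVec_mulVec, ← mulVec_mulVec,
      dotProduct_mulVec, ← mulVec_transpose]
    generalize (a.B x)ᵀ *ᵥ v = w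
    simp only [quadForm, dotProduct, mulVec, Finset.mul_sum]
    exact Finset.sum_congr rfl fun _ _ => Finset.sum_congr rfl fun _ _ => by ring
  have h3 := hK x (WithLp.toLp 2 ((a.B x)ᵀ *ᵥ v))
  rw [h2] at h3
  rw [qf_ric]
  refine le_trans (mul_le_mul_of_nonneg_right (by linarith [le_max_left (-K) 0]) ?_) h3
  exact Finset.sum_nonneg fun i _ => mul_self_nonneg _

theorem bochner (hf : a.S f) (x : M) : a.Δ (a.Γ f f) x = 2 * a.Γ f (a.Δ f) x +
    2 * (∑ i, ∑ j, a.hess f x i j ^ 2) + 2 * qf (a.ric x) (a.grad f x) := by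
  have h1 : ∑ i, ∑ j, a.hess f x i j ^ 2 = (a.hess f x * a.hess f x).trace := by
    simp only [trace, diag, mul_apply, sq, fun i j => (hess_symm hf x).apply i j]
  rw [Δ_c, cΔ_congr (Γ_ev hf hf x), bochner_coord (a.riem x) (hf.hat x) (a.cmem x), Γ_c,
    cΓ_congr EventuallyEq.rfl (Δ_ev hf x), qf_ric, grad, mulVec_mulVec, a.B_spec, h1, hess, ← a.B_spec]
  simp only [← Matrix.mul_assoc]
  rw [trace_mul_comm _ (a.B x)ᵀ]
  simp only [← Matrix.mul_assoc, cX, a.B_spec]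

theorem S_ext (x : M) {φ : E n → ℝ} (hφ : ContDiff ℝ ∞ φ) (hc : HasCompactSupport φ)
    (hs : tsupport φ ⊆ (a.ch x).target) : a.S ((a.ch x).source.indicator fun z => φ (a.ch x z)) := by
  refine S_of fun x' y hy => ContDiffAt.contDiffWithinAt ?_
  by_cases h : (a.ch x').symm y ∈ (a.ch x).source
  · have hW := (a.iso x' x).r.isOpen.mem_nhds (show y ∈ _ ∩ _ from ⟨hy, h⟩)
    refine (((a.iso x' x).comp hφ.contDiffOn).contDiffAt hW).congr_of_eventuallyEq ?_
    filter_upwards [hW] with z hz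
    exact indicator_of_mem (s := (a.ch x).source) hz.2 fun z => φ (a.ch x z)
  · have hK : IsClosed ((a.ch x).symm '' tsupport φ) :=
      (hc.isCompact.image_of_continuousOn ((a.ch x).continuousOn_symm.mono hs)).isClosed
    refine (contDiffAt_const (c := (0 : ℝ))).congr_of_eventuallyEq ?_
    filter_upwards [((a.ch x').continuousAt_symm hy).preimage_mem_nhds (hK.isOpen_compl.mem_nhds (by
      rintro ⟨w, hw, e⟩; exact h (e ▸ (a.ch x).map_target (hs hw))))] with z hz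
    refine indicator_apply_eq_zero.2 fun h1 => image_eq_zero_of_notMem_tsupport fun h2 => hz ?_
    exact ⟨_, h2, (a.ch x).left_inv h1⟩

end Atl

end Crest.Agent.R247.A
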