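import Crest.Agent.R247.A.Coord

/-! # Row 247, block A: Bochner's formula and change of coordinates (helper70) -/

set_option autoImplicit false
set_option linter.unusedSectionVars false
set_option linter.unusedVariables false
open MeasureTheory Filter Set Metric Matrix
open scoped ENNReal NNReal Topology ContDiff
open Crest.GeometryTopology.CoordMetric

noncomputable section
namespace Crest.Agent.R247.A

theorem sum3 {ι : Type} [Fintype ι] (F : ι → ι → ι → ℝ) :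
    ∑ i, ∑ j, ∑ k, F i j k = ∑ k, ∑ i, ∑ j, F i j k := by
  rw [Finset.sum_comm (f := fun k i => ∑ j, F i j k)]
  exact Finset.sum_congr rfl fun i _ => Finset.sum_comm

theorem boch_alg {ι : Type} [Fintype ι] (X w : ι → ℝ) (a dω : ι → ι → ℝ) (b Γ dΓ : ι → ι → ι → ℝ)
    (hb : ∀ k j, b k j k = b j k k) (hΓ : ∀ k i j, Γ k i j = Γ k j i) (hω : ∀ l, w l = ∑ k, Γ k k l) :
    ∑ k, (2 * ∑ j, ((b k j k + ∑ l, (dΓ k j l * X l + Γ k j l * a k l)) * X j +
      (a j k + ∑ l, Γ k j l * X l) * a k j) + w k * (2 * ∑ j, (a j k + ∑ l, Γ k j l * X l) * X j)) =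
    2 * ∑ j, X j * ∑ k, (b j k k + (dω j k * X k + w k * a j k)) +
      2 * ∑ k, ∑ j, (a j k + ∑ l, Γ k j l * X l) * (a k j + ∑ l, Γ j k l * X l) +
      2 * ∑ i, ∑ j, (∑ k, dΓ k i j - dω j i + ∑ k, ∑ l, Γ k k l * Γ l i j - ∑ k, ∑ l, Γ k j l * Γ l k i) *
        X i * X j := by
  set W : ι → ι → ℝ := fun k j => ∑ l, Γ k j l * X l with hW
  have c2 : ∀ {F G : ι → ι → ℝ}, (∀ i j, F i j = G j i) → ∑ i, ∑ j, F i j = ∑ i, ∑ j, G i j := fun h => by
    rw [Finset.sum_comm]; simp only [h]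
  have e1 : ∑ k, ∑ j, b k j k * X j = ∑ j, ∑ k, X j * b j k k := c2 fun k j => by rw [hb, mul_comm]
  have e2 : ∑ k, ∑ j, (∑ l, dΓ k j l * X l) * X j = ∑ i, ∑ j, (∑ k, dΓ k i j) * X i * X j := by
    simp only [Finset.sum_mul]
    rw [sum3 fun i j k => dΓ k i j * X i * X j]
    exact Finset.sum_congr rfl fun k _ => Finset.sum_congr rfl fun _ _ => Finset.sum_congr rfl fun _ _ => by ring
  have e3 : ∑ k, ∑ j, (∑ l, Γ k j l * a k l) * X j = ∑ k, ∑ j, a j k * W j k := by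
    rw [Finset.sum_comm (f := fun k j => a j k * W j k)]
    refine Finset.sum_congr rfl fun k _ => ?_
    simp only [hW, Finset.sum_mul, Finset.mul_sum]
    exact c2 fun j l => by rw [hΓ k j l]; ring
  have e6 : ∑ k, ∑ j, w k * (a j k * X j) = ∑ j, ∑ k, X j * (w k * a j k) := c2 fun k j => by ring
  have e7 : ∑ k, ∑ j, w k * (W k j * X j) = ∑ i, ∑ j, (∑ k, ∑ l, Γ k k l * Γ l i j) * X i * X j := by
    have : ∀ i j, ∑ k, ∑ l, Γ k k l * Γ l i j = ∑ l, w l * Γ l i j := fun i j => by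
      rw [Finset.sum_comm]; simp only [hω, Finset.sum_mul]
    simp only [this, hW, Finset.sum_mul, Finset.mul_sum]
    rw [sum3 fun i j l => w l * Γ l i j * X i * X j]
    exact Finset.sum_congr rfl fun _ _ => Finset.sum_congr rfl fun _ _ => Finset.sum_congr rfl fun _ _ => by ring
  have e9 : ∑ j, ∑ k, X j * (dω j k * X k) = ∑ i, ∑ j, dω j i * X i * X j := c2 fun j k => by ring
  have e11 : ∑ k, ∑ j, W k j * W j k = ∑ i, ∑ j, (∑ k, ∑ l, Γ k j l * Γ l k i) * X i * X j := by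
    simp only [hW, Finset.sum_mul_sum]
    simp only [Finset.sum_mul]
    symm
    rw [sum3 fun i j k => ∑ l, Γ k j l * Γ l k i * X i * X j]
    refine Finset.sum_congr rfl fun k _ => ?_
    rw [sum3 fun i j l => Γ k j l * Γ l k i * X i * X j]
    exact Finset.sum_congr rfl fun l _ => c2 fun i j => by rw [hΓ k j l]; ring
  have hW' : ∀ k j, ∑ l, Γ k j l * X l = W k j := fun _ _ => rfl
  have m1 : ∀ k (F : ι → ℝ), w k * ∑ j, F j = ∑ j, w k * F j := fun k F => Finset.mul_sum _ _ _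
  have m2 : ∀ k (F : ι → ℝ), X k * ∑ j, F j = ∑ j, X k * F j := fun k F => Finset.mul_sum _ _ _
  have m3 : ∀ F : ι → ℝ, ∑ j, 2 * F j = 2 * ∑ j, F j := fun F => (Finset.mul_sum _ _ _).symm
  simp only [hW', mul_left_comm (w _) 2, m1, m2, m3, add_mul, mul_add, sub_mul,
    Finset.sum_add_distrib, Finset.sum_sub_distrib]
  linarith

variable {n : ℕ} {g g' : MetricField n} {U U' : Set (E n)} {f h : E n → ℝ} {y : E n}

theorem bochner_coord (hg : IsRiemannianOn g U) (hf : ContDiffOn ℝ ∞ f U) (hy : y ∈ U) :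
    cΔ g (cΓ g f f) y = 2 * cΓ g f (cΔ g f) y + 2 * ((g y)⁻¹ * cH g f y * ((g y)⁻¹ * cH g f y)).trace +
      2 * ∑ i, ∑ j, ricci g y i j * cX g f y i * cX g f y j := by
  have hU := hg.isOpen
  have sX := cX_smooth hg hf
  have dX := fun k => dfa hU (sX k) hy
  have dpX := fun k j => dfa hU (pd_smooth hU (sX k) j) hy
  have dΓ := fun k i j => dfa hU (chr_smooth hg k i j) hy
  have dω := fun k => dfa hU (cω_smooth hg k) hy
  have dS := fun k j => DifferentiableAt.fun_sum (u := Finset.univ) fun l _ => (dΓ k j l).fun_mul (dX l)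
  have dA := fun k j => (dpX k j).fun_add (dS k j)
  have h1 : ∀ z ∈ U, ∀ k, cX g (cΓ g f f) z k = 2 * ∑ j,
      (pderiv j (fun z => cX g f z k) z + ∑ l, christoffel g z k j l * cX g f z l) * cX g f z j := fun z hz k => by
    rw [cX, dv_cΓ hg hf hf hz, mulVec_add, mulVec_mulVec, Pi.add_apply, ← two_mul]
    simp only [mulVec, dotProduct, GH_apply hg hf hz]
  have h2 : ∀ j, pderiv j (cΔ g f) y = ∑ k, (pderiv j (pderiv k fun z => cX g f z k) y +
      (pderiv j (cω g k) y * cX g f y k + cω g k y * pderiv j (fun z => cX g f z k) y)) := fun j => by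
    rw [pd_congr hU hy fun z hz => cΔ_div hg hf hz, pd_sum _ fun k => (dpX k k).fun_add ((dω k).fun_mul (dX k))]
    exact Finset.sum_congr rfl fun k _ => by rw [pd_add (dpX k k) ((dω k).fun_mul (dX k)), pd_mul (dω k) (dX k)]
  have h3 : ∀ k, pderiv k (fun z => cX g (cΓ g f f) z k) y = 2 * ∑ j,
      ((pderiv k (pderiv j fun z => cX g f z k) y + ∑ l, (pderiv k (fun z => christoffel g z k j l) y * cX g f y l +
        christoffel g y k j l * pderiv k (fun z => cX g f z l) y)) * cX g f y j +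
      (pderiv j (fun z => cX g f z k) y + ∑ l, christoffel g y k j l * cX g f y l) *
        pderiv k (fun z => cX g f z j) y) := fun k => by
    rw [pd_congr hU hy fun z hz => h1 z hz k, pd_mul (differentiableAt_const _)
      (DifferentiableAt.fun_sum fun j _ => (dA k j).fun_mul (dX j)), pd_const, zero_mul, zero_add,
      pd_sum _ fun j => (dA k j).fun_mul (dX j)]
    congr 1
    refine Finset.sum_congr rfl fun j _ => ?_
    rw [pd_mul (dA k j) (dX j), pd_add (dpX k j) (dS k j), pd_sum _ fun l => (dΓ k j l).fun_mul (dX l)]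
    simp only [fun l => pd_mul (i := k) (dΓ k j l) (dX l)]
  rw [cΔ_div hg (cΓ_smooth hg hf hf) hy, cΓ_eq hg hy]
  simp only [h3, h1 y hy, dotProduct, dv, h2, trace, diag, mul_apply (M := (g y)⁻¹ * cH g f y),
    GH_apply hg hf hy]
  exact boch_alg (cX g f y) (fun k => cω g k y) (fun j k => pderiv j (fun z => cX g f z k) y)
    (fun j k => pderiv j (cω g k) y) (fun k j m => pderiv k (pderiv j fun z => cX g f z m) y)
    (christoffel g y) (fun k j l => pderiv k (fun z => christoffel g z k j l) y)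
    (fun k j => pd_comm (((sX k).contDiffAt (hU.mem_nhds hy)).of_le two_le) k j) (chr_symm hg hy) fun l => rfl

/-- Jacobian matrix -/
def jac (τ : E n → E n) (y : E n) : Mat n := Matrix.of fun a i => pderiv i (fun z => τ z a) y

/-- `τ` is a local isometry from `(U, g)` to `(U', g')` -/
structure Iso (g : MetricField n) (U : Set (E n)) (g' : MetricField n) (U' : Set (E n)) (τ : E n → E n) : Prop where
  r : IsRiemannianOn g U
  r' : IsRiemannianOn g' U'
  sm : ContDiffOn ℝ ∞ τ U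
  maps : MapsTo τ U U'
  eq : ∀ y ∈ U, g y = (jac τ y)ᵀ * g' (τ y) * jac τ y

theorem koszul (hg : IsRiemannianOn g U) {a b : E n → ℝ} (hf : ContDiffOn ℝ ∞ f U) (ha : ContDiffOn ℝ ∞ a U)
    (hb : ContDiffOn ℝ ∞ b U) (hy : y ∈ U) : 2 * (cX g a y ⬝ᵥ cH g f y *ᵥ cX g b y) =
      cΓ g a (cΓ g f b) y + cΓ g b (cΓ g f a) y - cΓ g f (cΓ g a b) y := by
  have s : ∀ {u : E n → ℝ}, ContDiffOn ℝ ∞ u U → ∀ v w, v ⬝ᵥ cH g u y *ᵥ w = w ⬝ᵥ cH g u y *ᵥ v := fun hu v w => by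
    rw [dotProduct_mulVec, ← mulVec_transpose, cH_tr hg hu hy, dotProduct_comm]
  simp only [cΓ_eq hg hy, dv_cΓ hg hf hb hy, dv_cΓ hg hf ha hy, dv_cΓ hg ha hb hy, dotProduct_add,
    s hf (cX g b y), s hb (cX g a y), s ha (cX g b y)]
  ring

variable {τ : E n → E n} (I : Iso g U g' U' τ)
include I

theorem Iso.comp (hf : ContDiffOn ℝ ∞ f U') : ContDiffOn ℝ ∞ (fun z => f (τ z)) U := hf.comp I.sm I.maps

theorem Iso.dv (hf : ContDiffOn ℝ ∞ f U') (hy : y ∈ U) : dv (fun z => f (τ z)) y = (jac τ y)ᵀ *ᵥ dv f (τ y) :=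
  funext fun i => pd_chain (dfa I.r.isOpen I.sm hy) (dfa I.r'.isOpen hf (I.maps hy))

theorem Iso.det (hy : y ∈ U) : (g y).det = (jac τ y).det ^ 2 * (g' (τ y)).det := by
  rw [I.eq y hy, det_mul, det_mul, det_transpose]; ring

theorem Iso.inv (hy : y ∈ U) : jac τ y * (g y)⁻¹ * (jac τ y)ᵀ = (g' (τ y))⁻¹ := by
  have h0 : IsUnit (jac τ y).det := by
    refine isUnit_iff_ne_zero.2 fun h => (I.r.posDef y hy).det_pos.ne' ?_
    rw [I.det hy, h]; ring
  rw [I.eq y hy, Matrix.mul_inv_rev, Matrix.mul_inv_rev, ← Matrix.mul_assoc, mul_nonsing_inv _ h0, Matrix.one_mul,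
    Matrix.mul_assoc, nonsing_inv_mul _ (by rwa [det_transpose]), Matrix.mul_one]

theorem Iso.cΓ (hf : ContDiffOn ℝ ∞ f U') (hh : ContDiffOn ℝ ∞ h U') (hy : y ∈ U) :
    cΓ g (fun z => f (τ z)) (fun z => h (τ z)) y = cΓ g' f h (τ y) := by
  rw [A.cΓ, A.cΓ, cX, cX, I.dv hf hy, I.dv hh hy, ← I.inv hy, mulVec_transpose, ← dotProduct_mulVec]
  simp only [mulVec_mulVec, Matrix.mul_assoc]

theorem Iso.cΓ2 {a b c : E n → ℝ} (ha : ContDiffOn ℝ ∞ a U') (hb : ContDiffOn ℝ ∞ b U')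
    (hc : ContDiffOn ℝ ∞ c U') (hy : y ∈ U) :
    A.cΓ g (fun z => a (τ z)) (A.cΓ g (fun z => b (τ z)) fun z => c (τ z)) y = A.cΓ g' a (A.cΓ g' b c) (τ y) := by
  rw [← I.cΓ ha (cΓ_smooth I.r' hb hc) hy]
  exact cΓ_congr EventuallyEq.rfl (eventually_of_mem (I.r.isOpen.mem_nhds hy) fun z hz => I.cΓ hb hc hz)

theorem Iso.cΔ (hf : ContDiffOn ℝ ∞ f U') (hy : y ∈ U) : cΔ g (fun z => f (τ z)) y = cΔ g' f (τ y) := by
  have hy' := I.maps hy
  have sc : ∀ a : Fin n, ContDiffOn ℝ ∞ (fun z : E n => z a) U' := fun a =>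
    (EuclideanSpace.proj (𝕜 := ℝ) a).contDiff.contDiffOn
  have dc : ∀ a : Fin n, A.dv (fun z : E n => z a) (τ y) = Pi.single a 1 := fun a => funext fun i => pd_coord i a
  have h1 : jac τ y * (g y)⁻¹ * cH g (fun z => f (τ z)) y * ((g y)⁻¹ * (jac τ y)ᵀ) =
      (g' (τ y))⁻¹ * cH g' f (τ y) * (g' (τ y))⁻¹ := by
    ext a b
    have k1 := koszul I.r (I.comp hf) (I.comp (sc a)) (I.comp (sc b)) hy
    rw [I.cΓ2 (sc a) hf (sc b) hy, I.cΓ2 (sc b) hf (sc a) hy, I.cΓ2 hf (sc a) (sc b) hy,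
      ← koszul I.r' hf (sc a) (sc b) hy', cX, cX, cX, cX, I.dv (sc a) hy, I.dv (sc b) hy, dc, dc] at k1
    have e : ∀ P Q R : Mat n, (P *ᵥ Pi.single a 1) ⬝ᵥ Q *ᵥ R *ᵥ Pi.single b 1 = (Pᵀ * Q * R) a b := fun P Q R => by
      rw [mulVec_mulVec, ← vecMul_transpose, ← dotProduct_mulVec, mulVec_mulVec, Matrix.mul_assoc]
      simp
    rw [mulVec_mulVec, mulVec_mulVec _ (g y)⁻¹, e, e, transpose_mul, transpose_transpose, G_tr I.r hy,
      G_tr I.r' hy'] at k1
    linarith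
  have h2 := congrArg (fun P => (g' (τ y) * P).trace) h1
  simp only [← Matrix.mul_assoc] at h2
  rw [g_G I.r' hy', Matrix.one_mul, trace_mul_comm _ (jac τ y)ᵀ] at h2
  simp only [← Matrix.mul_assoc] at h2
  rw [← I.eq y hy, g_G I.r hy, Matrix.one_mul] at h2
  rw [A.cΔ, A.cΔ, trace_mul_comm, h2, trace_mul_comm]

end Crest.Agent.R247.A
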