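import Crest.Agent.R247.A.Pd

/-! # Row 247, block A: gradient, Hessian and Laplacian in coordinates (helper70) -/

set_option autoImplicit false
set_option linter.unusedSectionVars false
set_option linter.unusedVariables false
open MeasureTheory Filter Set Metric Matrix
open scoped ENNReal NNReal Topology ContDiff
open Crest.GeometryTopology.CoordMetric

noncomputable section
namespace Crest.Agent.R247.A

variable {n : ℕ}

/-- differential -/
def dv (f : E n → ℝ) (y : E n) : V n := fun i => pderiv i f y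
/-- gradient vector -/
def cX (g : MetricField n) (f : E n → ℝ) (y : E n) : V n := (g y)⁻¹ *ᵥ dv f y
/-- covariant Hessian -/
def cH (g : MetricField n) (f : E n → ℝ) (y : E n) : Mat n :=
  Matrix.of fun i j => pderiv i (pderiv j f) y - ∑ l, christoffel g y l i j * pderiv l f y
def cΓ (g : MetricField n) (f h : E n → ℝ) (y : E n) : ℝ := dv f y ⬝ᵥ cX g h y
def cΔ (g : MetricField n) (f : E n → ℝ) (y : E n) : ℝ := ((g y)⁻¹ * cH g f y).trace
/-- connection matrices -/
def cC (g : MetricField n) (k : Fin n) (y : E n) : Mat n := Matrix.of fun l i => christoffel g y l k i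
def cω (g : MetricField n) (l : Fin n) (y : E n) : ℝ := ∑ k, christoffel g y k k l
/-- volume density -/
def cρ (g : MetricField n) (y : E n) : ℝ := √(g y).det

variable {g : MetricField n} {U : Set (E n)} {f h : E n → ℝ} {y : E n}

theorem dv_congr (e : f =ᶠ[𝓝 y] h) : dv f y = dv h y := funext fun i => (pd_congr_ev e i).self_of_nhds

theorem cH_congr (e : f =ᶠ[𝓝 y] h) : cH g f y = cH g h y := by
  ext i j
  simp only [cH, of_apply, (pd_congr_ev (pd_congr_ev e j) i).self_of_nhds, fun l => (pd_congr_ev e l).self_of_nhds]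

theorem cΓ_congr {f' h' : E n → ℝ} (e : f =ᶠ[𝓝 y] f') (e' : h =ᶠ[𝓝 y] h') : cΓ g f h y = cΓ g f' h' y := by
  simp only [cΓ, cX, dv_congr e, dv_congr e']

theorem cΔ_congr (e : f =ᶠ[𝓝 y] h) : cΔ g f y = cΔ g h y := by
  simp only [cΔ, cH_congr e]

theorem riem_mono {W : Set (E n)} (hg : IsRiemannianOn g U) (hW : IsOpen W) (hWU : W ⊆ U) : IsRiemannianOn g W :=
  ⟨hW, fun i j => (hg.contDiffOn i j).mono hWU, fun x hx => hg.posDef x (hWU hx)⟩

section
variable (hg : IsRiemannianOn g U)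
include hg

theorem g_tr (hy : y ∈ U) : (g y)ᵀ = g y := by
  simpa using (hg.posDef y hy).1.eq

theorem g_symm (hy : y ∈ U) (i j : Fin n) : g y i j = g y j i := congrFun (congrFun (g_tr hg hy) j) i

theorem G_tr (hy : y ∈ U) : (g y)⁻¹ᵀ = (g y)⁻¹ := by rw [transpose_nonsing_inv, g_tr hg hy]

theorem g_G (hy : y ∈ U) : g y * (g y)⁻¹ = 1 := mul_nonsing_inv _ (hg.posDef y hy).det_pos.ne'.isUnit

theorem G_g (hy : y ∈ U) : (g y)⁻¹ * g y = 1 := nonsing_inv_mul _ (hg.posDef y hy).det_pos.ne'.isUnit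

theorem G_smooth (k l : Fin n) : ContDiffOn ℝ ∞ (fun x => (g x)⁻¹ k l) U := by
  simp only [Matrix.inv_def, Ring.inverse_eq_inv', Matrix.smul_apply, smul_eq_mul, Matrix.adjugate_apply]
  refine ((det_smooth hg.contDiffOn).inv fun x hx => (hg.posDef x hx).det_pos.ne').mul
    (det_smooth fun i j => ?_)
  simp only [Matrix.updateRow_apply]
  split_ifs
  · exact contDiffOn_const
  · exact hg.contDiffOn _ _

theorem chr_smooth (k i j : Fin n) : ContDiffOn ℝ ∞ (fun x => christoffel g x k i j) U :=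
  contDiffOn_const.mul (ContDiffOn.sum fun l _ => (G_smooth hg k l).mul
    (((pd_smooth hg.isOpen (hg.contDiffOn j l) i).add (pd_smooth hg.isOpen (hg.contDiffOn i l) j)).sub
      (pd_smooth hg.isOpen (hg.contDiffOn i j) l)))

theorem chr_symm (hy : y ∈ U) (k i j : Fin n) : christoffel g y k i j = christoffel g y k j i := by
  simp only [christoffel, fun l => pd_congr hg.isOpen hy (fun z hz => g_symm hg hz i j) l]
  congr 1
  exact Finset.sum_congr rfl fun l _ => by ring

theorem cω_smooth (l : Fin n) : ContDiffOn ℝ ∞ (cω g l) U := ContDiffOn.sum fun k _ => chr_smooth hg k k l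

theorem cρ_pos (hy : y ∈ U) : 0 < cρ g y := Real.sqrt_pos.2 (hg.posDef y hy).det_pos

theorem cρ_smooth : ContDiffOn ℝ ∞ (cρ g) U :=
  (det_smooth hg.contDiffOn).sqrt fun x hx => (hg.posDef x hx).det_pos.ne'

theorem cX_smooth (hf : ContDiffOn ℝ ∞ f U) (i : Fin n) : ContDiffOn ℝ ∞ (fun y => cX g f y i) U :=
  ContDiffOn.sum (s := Finset.univ) fun j _ => (G_smooth hg i j).mul (pd_smooth hg.isOpen hf j)

theorem cH_smooth (hf : ContDiffOn ℝ ∞ f U) (i j : Fin n) : ContDiffOn ℝ ∞ (fun y => cH g f y i j) U :=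
  (pd_smooth hg.isOpen (pd_smooth hg.isOpen hf j) i).sub
    (ContDiffOn.sum fun l _ => (chr_smooth hg l i j).mul (pd_smooth hg.isOpen hf l))

theorem cΓ_smooth (hf : ContDiffOn ℝ ∞ f U) (hh : ContDiffOn ℝ ∞ h U) : ContDiffOn ℝ ∞ (cΓ g f h) U :=
  ContDiffOn.sum (s := Finset.univ) fun i _ => (pd_smooth hg.isOpen hf i).mul (cX_smooth hg hh i)

theorem cΔ_smooth (hf : ContDiffOn ℝ ∞ f U) : ContDiffOn ℝ ∞ (cΔ g f) U :=
  ContDiffOn.sum (s := Finset.univ) fun i _ => ContDiffOn.sum (s := Finset.univ) fun j _ =>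
    (G_smooth hg i j).mul (cH_smooth hg hf j i)

theorem cH_tr (hf : ContDiffOn ℝ ∞ f U) (hy : y ∈ U) : (cH g f y)ᵀ = cH g f y := by
  ext i j
  simp only [cH, transpose_apply, of_apply, fun l => chr_symm hg hy l j i,
    pd_comm ((hf.contDiffAt (hg.isOpen.mem_nhds hy)).of_le two_le) j i]

theorem cΓ_eq (hy : y ∈ U) : cΓ g f h y = cX g f y ⬝ᵥ dv h y := by
  rw [cΓ, cX, cX, dotProduct_mulVec, ← mulVec_transpose, G_tr hg hy]

theorem dM_g (hy : y ∈ U) (k : Fin n) : dM k g y = (cC g k y)ᵀ * g y + g y * cC g k y := by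
  let L : Mat n := Matrix.of fun l j => (1 / 2) * (pderiv k (fun z => g z j l) y +
    pderiv j (fun z => g z k l) y - pderiv l (fun z => g z k j) y)
  have h1 : cC g k y = (g y)⁻¹ * L := by
    ext l j
    simp only [cC, of_apply, christoffel, mul_apply, L, inverseField, Finset.mul_sum]
    exact Finset.sum_congr rfl fun a _ => by ring
  have h2 : g y * cC g k y = L := by rw [h1, ← Matrix.mul_assoc, g_G hg hy, Matrix.one_mul]
  have h3 : (cC g k y)ᵀ * g y = Lᵀ := by rw [← h2, transpose_mul, g_tr hg hy]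
  rw [h2, h3]
  ext i j
  simp only [dM, L, of_apply, Matrix.add_apply, transpose_apply,
    pd_congr hg.isOpen hy (fun z hz => g_symm hg hz j i) k]
  ring

theorem dM_G (hy : y ∈ U) (k : Fin n) :
    dM k (fun z => (g z)⁻¹) y = -((g y)⁻¹ * (cC g k y)ᵀ + cC g k y * (g y)⁻¹) := by
  have h1 := dM_mul (fun i j => dfa hg.isOpen (G_smooth hg i j) hy)
    (fun i j => dfa hg.isOpen (hg.contDiffOn i j) hy) k
  have h2 : dM k (fun z => (g z)⁻¹ * g z) y = 0 := by
    ext i j
    simp only [dM, of_apply]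
    rw [pd_congr hg.isOpen hy (fun z hz => by rw [G_g hg hz]) k, pd_const]
    rfl
  have h3 := congrArg (· * (g y)⁻¹) (eq_neg_of_add_eq_zero_left (h1.symm.trans h2))
  simp only [Matrix.mul_assoc, g_G hg hy, Matrix.mul_one, dM_g hg hy, Matrix.neg_mul, Matrix.add_mul,
    Matrix.mul_add] at h3
  rw [h3, ← Matrix.mul_assoc _ (g y), G_g hg hy, Matrix.one_mul]

theorem pd_dv (k : Fin n) : (fun j => pderiv k (pderiv j f) y) = cH g f y k + (cC g k y)ᵀ *ᵥ dv f y := by
  ext j
  simp [cH, cC, dv, mulVec, dotProduct]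

theorem pd_cX (hf : ContDiffOn ℝ ∞ f U) (hy : y ∈ U) (k : Fin n) :
    (fun i => pderiv k (fun z => cX g f z i) y) = (g y)⁻¹ *ᵥ cH g f y k - cC g k y *ᵥ cX g f y := by
  have h1 : (fun i => pderiv k (fun z => cX g f z i) y) = dM k (fun z => (g z)⁻¹) y *ᵥ dv f y +
      (g y)⁻¹ *ᵥ fun j => pderiv k (pderiv j f) y := by
    ext i
    have d1 := fun j => dfa hg.isOpen (G_smooth hg i j) hy
    have d2 := fun j => dfa hg.isOpen (pd_smooth hg.isOpen hf j) hy
    simp only [cX, dv, dM, mulVec, dotProduct, Pi.add_apply, of_apply, ← Finset.sum_add_distrib]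
    rw [pd_sum _ fun j => (d1 j).fun_mul (d2 j)]
    exact Finset.sum_congr rfl fun j _ => pd_mul (d1 j) (d2 j)
  rw [h1, dM_G hg hy, pd_dv hg, cX]
  simp only [neg_mulVec, add_mulVec, mulVec_add, mulVec_mulVec]
  abel

theorem dv_cΓ (hf : ContDiffOn ℝ ∞ f U) (hh : ContDiffOn ℝ ∞ h U) (hy : y ∈ U) :
    dv (cΓ g f h) y = cH g f y *ᵥ cX g h y + cH g h y *ᵥ cX g f y := by
  ext k
  have d1 := fun j => dfa hg.isOpen (pd_smooth hg.isOpen hf j) hy
  have d2 := fun j => dfa hg.isOpen (cX_smooth hg hh j) hy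
  have h1 : dv (cΓ g f h) y k = (fun j => pderiv k (pderiv j f) y) ⬝ᵥ cX g h y +
      dv f y ⬝ᵥ fun i => pderiv k (fun z => cX g h z i) y := by
    simp only [dotProduct, ← Finset.sum_add_distrib]
    exact (pd_sum Finset.univ fun j => (d1 j).fun_mul (d2 j)).trans
      (Finset.sum_congr rfl fun j _ => pd_mul (d1 j) (d2 j))
  rw [h1, pd_dv hg, pd_cX hg hh hy, add_dotProduct, dotProduct_sub, mulVec_transpose, ← dotProduct_mulVec,
    dotProduct_mulVec _ (g y)⁻¹, ← mulVec_transpose, G_tr hg hy, dotProduct_comm _ (cH g h y k)]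
  simp only [Pi.add_apply, cX]
  rw [add_add_sub_cancel]
  rfl

/-- the covariant derivative of the gradient -/
theorem GH_apply (hf : ContDiffOn ℝ ∞ f U) (hy : y ∈ U) (k j : Fin n) : ((g y)⁻¹ * cH g f y) k j =
    pderiv j (fun z => cX g f z k) y + ∑ l, christoffel g y k j l * cX g f y l := by
  have e : ∀ a, cH g f y a j = cH g f y j a := fun a => congrFun (congrFun (cH_tr hg hf hy) j) a
  rw [congrFun (pd_cX hg hf hy j) k]
  simp [cC, mulVec, dotProduct, mul_apply, e]

theorem cΔ_div (hf : ContDiffOn ℝ ∞ f U) (hy : y ∈ U) :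
    cΔ g f y = ∑ k, (pderiv k (fun z => cX g f z k) y + cω g k y * cX g f y k) := by
  simp only [cΔ, trace, diag, GH_apply hg hf hy, Finset.sum_add_distrib, cω, Finset.sum_mul]
  rw [Finset.sum_comm]

theorem pd_cρ (hy : y ∈ U) (l : Fin n) : pderiv l (cρ g) y = cρ g y * cω g l y := by
  have h0 := (hg.posDef y hy).det_pos
  have h1 : ((g y)⁻¹ * dM l g y).trace = 2 * cω g l y := by
    rw [dM_g hg hy, Matrix.mul_add, trace_add, ← Matrix.mul_assoc, trace_mul_comm, ← Matrix.mul_assoc,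
      ← Matrix.mul_assoc, g_G hg hy, G_g hg hy, Matrix.one_mul, Matrix.one_mul, trace_transpose, ← two_mul]
    simp only [trace, diag, cC, of_apply, cω, fun k => chr_symm hg hy k l k]
  have h2 := pd_comp (i := l) (dfa hg.isOpen (det_smooth hg.contDiffOn) hy) (Real.hasDerivAt_sqrt h0.ne')
  rw [pd_det hg.isOpen hg.contDiffOn hy h0.ne', h1] at h2
  have h3 := Real.sqrt_pos.2 h0
  refine h2.trans ?_
  rw [cρ]
  field_simp
  rw [Real.sq_sqrt h0.le]

theorem div_form (hf : ContDiffOn ℝ ∞ f U) (hh : ContDiffOn ℝ ∞ h U) (hy : y ∈ U) :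
    ∑ k, pderiv k (fun z => f z * cρ g z * cX g h z k) y = cρ g y * (cΓ g f h y + f y * cΔ g h y) := by
  have d1 := dfa hg.isOpen hf hy
  have d2 := dfa hg.isOpen (cρ_smooth hg) hy
  simp only [fun k => pd_mul (i := k) (d1.fun_mul d2) (dfa hg.isOpen (cX_smooth hg hh k) hy), pd_mul d1 d2,
    pd_cρ hg hy, cΔ_div hg hh hy, cΓ, dv, dotProduct, Finset.mul_sum, ← Finset.sum_add_distrib]
  exact Finset.sum_congr rfl fun k _ => by ring

/-- integration by parts in a chart -/
theorem ibp_coord (hf : ContDiffOn ℝ ∞ f U) (hh : ContDiffOn ℝ ∞ h U) {K : Set (E n)} (hK : IsCompact K)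
    (hKU : K ⊆ U) (h0 : ∀ z ∈ U, z ∉ K → f z = 0) :
    ∫ y in U, cρ g y * (cΓ g f h y + f y * cΔ g h y) = 0 := by
  have h1 := fun k => integral_pd hg.isOpen ((hf.mul (cρ_smooth hg)).mul (cX_smooth hg hh k)) hK hKU
    (fun z hz hz' => by rw [h0 z hz hz', zero_mul, zero_mul]) k
  rw [← setIntegral_congr_fun hg.isOpen.measurableSet fun y hy => div_form hg hf hh hy,
    integral_finsetSum _ fun k _ => (h1 k).1]
  exact Finset.sum_eq_zero fun k _ => (h1 k).2

end

theorem dv_add (hf : DifferentiableAt ℝ f y) (hh : DifferentiableAt ℝ h y) :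
    dv (fun z => f z + h z) y = dv f y + dv h y := funext fun i => pd_add hf hh

theorem cH_add (hU : IsOpen U) (hf : ContDiffOn ℝ ∞ f U) (hh : ContDiffOn ℝ ∞ h U) (hy : y ∈ U) :
    cH g (fun z => f z + h z) y = cH g f y + cH g h y := by
  ext i j
  simp only [cH, of_apply, Matrix.add_apply]
  rw [pd_congr hU hy (fun z hz => pd_add (dfa hU hf hz) (dfa hU hh hz)),
    pd_add (dfa hU (pd_smooth hU hf j) hy) (dfa hU (pd_smooth hU hh j) hy)]
  simp only [pd_add (dfa hU hf hy) (dfa hU hh hy), mul_add, Finset.sum_add_distrib]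
  ring

theorem dv_comp {φ : ℝ → ℝ} (hf : DifferentiableAt ℝ f y) (hφ : DifferentiableAt ℝ φ (f y)) :
    dv (fun z => φ (f z)) y = deriv φ (f y) • dv f y := funext fun i => pd_comp hf hφ.hasDerivAt

theorem cH_comp {φ : ℝ → ℝ} {O : Set ℝ} (hU : IsOpen U) (hf : ContDiffOn ℝ ∞ f U) (hO : IsOpen O)
    (hφ : ContDiffOn ℝ ∞ φ O) (hm : ∀ z ∈ U, f z ∈ O) (hy : y ∈ U) : cH g (fun z => φ (f z)) y =
      deriv φ (f y) • cH g f y + deriv (deriv φ) (f y) • vecMulVec (dv f y) (dv f y) := by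
  have hφ' : ContDiffOn ℝ ∞ (deriv φ) O := hφ.deriv_of_isOpen hO (by simp)
  have e : ∀ z ∈ U, ∀ j, pderiv j (fun z => φ (f z)) z = deriv φ (f z) * pderiv j f z := fun z hz j =>
    pd_comp (dfa hU hf hz) (dfa hO hφ (hm z hz)).hasDerivAt
  have d1 := dfa hU hf hy
  have d2 := dfa hO hφ' (hm y hy)
  ext i j
  simp only [cH, of_apply, Matrix.add_apply, Matrix.smul_apply, vecMulVec_apply, dv, smul_eq_mul, e y hy]
  rw [pd_congr hU hy fun z hz => e z hz j, pd_mul (d2.fun_comp' y d1) (dfa hU (pd_smooth hU hf j) hy),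
    pd_comp d1 d2.hasDerivAt, mul_sub, Finset.mul_sum]
  simp only [mul_left_comm (deriv φ (f y))]
  ring

end Crest.Agent.R247.A
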