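import Crest.Agent.R247.A.Atl

/-! # Row 247, block A: the Riemannian measure, integration by parts (helper70) -/

set_option autoImplicit false
set_option linter.unusedSectionVars false
set_option linter.unusedVariables false
open MeasureTheory Filter Set Metric Matrix
open scoped ENNReal NNReal Topology ContDiff
open Crest.GeometryTopology.CoordMetric

noncomputable section
namespace Crest.Agent.R247.A
universe u

theorem det_jac {n : ℕ} {τ : E n → E n} {y : E n} (h : DifferentiableAt ℝ τ y) :
    (fderiv ℝ τ y).det = (jac τ y).det := by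
  rw [ContinuousLinearMap.det, ← LinearMap.det_toMatrix (EuclideanSpace.basisFun (Fin n) ℝ).toBasis]
  congr 1
  ext i j
  simp [LinearMap.toMatrix_apply, jac, pd_proj h]

theorem lint_sub {n : ℕ} {T W : Set (E n)} (hT : MeasurableSet T) (hW : MeasurableSet W) (h : W ⊆ T)
    {F : E n → ℝ≥0∞} (h0 : ∀ y ∈ T, y ∉ W → F y = 0) : ∫⁻ y in T, F y = ∫⁻ y in W, F y := by
  rw [← inter_eq_self_of_subset_left h, ← Measure.restrict_restrict hW, ← lintegral_indicator hW]
  refine setLIntegral_congr_fun hT fun y hy => ?_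
  by_cases h1 : y ∈ W
  · exact (indicator_of_mem h1 _).symm
  · rw [indicator_of_notMem h1, h0 y hy h1]

namespace Atl
variable {n : ℕ} {M : Type u} [MetricSpace M] [MeasurableSpace M] [BorelSpace M] (a : Atl n M)

/-- the measure of one chart -/
def μ (x : M) : Measure M :=
  ((volume.restrict (a.ch x).target).withDensity fun y => ENNReal.ofReal (cρ (a.gm x) y)).map (a.ch x).symm

theorem aem_symm (x : M) : AEMeasurable (a.ch x).symm (volume.restrict (a.ch x).target) :=
  (a.ch x).continuousOn_symm.aemeasurable (a.op x).measurableSet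

theorem aem_ρ (x : M) :
    AEMeasurable (fun y => ENNReal.ofReal (cρ (a.gm x) y)) (volume.restrict (a.ch x).target) :=
  ((cρ_smooth (a.riem x)).continuousOn.aemeasurable (a.op x).measurableSet).ennreal_ofReal

theorem lint_μ (x : M) {φ : M → ℝ≥0∞} (hφ : Measurable φ) : ∫⁻ z, φ z ∂a.μ x =
    ∫⁻ y in (a.ch x).target, φ ((a.ch x).symm y) * ENNReal.ofReal (cρ (a.gm x) y) := by
  rw [μ, lintegral_map' hφ.aemeasurable ((a.aem_symm x).mono_ac (withDensity_absolutelyContinuous _ _)),
    lintegral_withDensity_eq_lintegral_mul₀ (a.aem_ρ x) (hφ.comp_aemeasurable' (a.aem_symm x))]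
  simp only [Pi.mul_apply, mul_comm]

theorem int_μ (x : M) {φ : M → ℝ} (hφ : Continuous φ) : ∫ z, φ z ∂a.μ x =
    ∫ y in (a.ch x).target, cρ (a.gm x) y * a.hat x φ y := by
  rw [μ, integral_map ((a.aem_symm x).mono_ac (withDensity_absolutelyContinuous _ _)) hφ.aestronglyMeasurable,
    integral_withDensity_eq_integral_toReal_smul₀ (a.aem_ρ x) (Eventually.of_forall fun _ => ENNReal.ofReal_lt_top)]
  refine setIntegral_congr_fun (a.op x).measurableSet fun y hy => ?_
  simp only [ENNReal.toReal_ofReal (cρ_pos (a.riem x) hy).le, smul_eq_mul, hat]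

theorem μ_apply (x : M) {s : Set M} (hs : MeasurableSet s) : a.μ x s =
    ∫⁻ y in (a.ch x).target, s.indicator 1 ((a.ch x).symm y) * ENNReal.ofReal (cρ (a.gm x) y) := by
  rw [← a.lint_μ x (measurable_one.indicator hs), lintegral_indicator_one hs]

theorem μ_inter (x : M) {s : Set M} (hs : MeasurableSet s) : a.μ x (s ∩ (a.ch x).source) = a.μ x s := by
  rw [a.μ_apply x hs, a.μ_apply x (hs.inter (a.ch x).open_source.measurableSet)]
  refine setLIntegral_congr_fun (a.op x).measurableSet fun y hy => ?_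
  congr 1
  by_cases h : (a.ch x).symm y ∈ s
  · rw [indicator_of_mem h, indicator_of_mem (show _ ∈ s ∩ _ from ⟨h, (a.ch x).map_target hy⟩)]
  · rw [indicator_of_notMem h, indicator_of_notMem fun h' => h h'.1]

theorem μ_eq (x x' : M) {s : Set M} (hs : MeasurableSet s) (h : s ⊆ (a.ch x).source) (h' : s ⊆ (a.ch x').source) :
    a.μ x s = a.μ x' s := by
  have I := a.iso x x'
  have hW := I.r.isOpen
  have him : (fun z => a.ch x' ((a.ch x).symm z)) '' ((a.ch x).target ∩ (a.ch x).symm ⁻¹' (a.ch x').source) =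
      (a.ch x').target ∩ (a.ch x').symm ⁻¹' (a.ch x).source := by
    ext w
    constructor
    · rintro ⟨z, hz, rfl⟩
      exact ⟨I.maps hz, by rw [mem_preimage, (a.ch x').left_inv hz.2]; exact (a.ch x).map_target hz.1⟩
    · intro hw
      have e := (a.ch x).left_inv hw.2
      exact ⟨_, ⟨(a.ch x).map_source hw.2, by rw [mem_preimage, e]; exact (a.ch x').map_target hw.1⟩,
        by simp only [e, (a.ch x').right_inv hw.1]⟩
  rw [a.μ_apply x hs, a.μ_apply x' hs,
    lint_sub (a.op x).measurableSet hW.measurableSet inter_subset_left fun y _ hy => by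
      rw [indicator_of_notMem fun h1 => hy ⟨‹_›, h' h1⟩, zero_mul],
    lint_sub (a.op x').measurableSet (a.iso x' x).r.isOpen.measurableSet inter_subset_left fun y _ hy => by
      rw [indicator_of_notMem fun h1 => hy ⟨‹_›, h h1⟩, zero_mul], ← him,
    lintegral_image_eq_lintegral_abs_det_fderiv_mul volume hW.measurableSet
      (fun y hy => (dfa hW I.sm hy).hasFDerivAt.hasFDerivWithinAt)
      fun y hy z hz e => (a.ch x).symm.injOn hy.1 hz.1 ((a.ch x').injOn hy.2 hz.2 e)]
  refine setLIntegral_congr_fun hW.measurableSet fun y hy => ?_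
  simp only [(a.ch x').left_inv hy.2]
  rw [mul_left_comm, ← ENNReal.ofReal_mul (abs_nonneg _), det_jac (dfa hW I.sm hy), cρ, cρ, I.det hy,
    Real.sqrt_mul (sq_nonneg _), Real.sqrt_sq_eq_abs]

theorem exists_m [SecondCountableTopology M] [Nonempty M] :
    ∃ m : Measure M, ∀ x, m.restrict (a.ch x).source = a.μ x := by
  obtain ⟨s, hc, hs⟩ := TopologicalSpace.countable_cover_nhds fun x => (a.ch x).open_source.mem_nhds (a.mem x)
  have hne : s.Nonempty := by
    obtain ⟨x, hx, -⟩ := mem_iUnion₂.1 (hs ▸ mem_univ (Classical.arbitrary M))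
    exact ⟨x, hx⟩
  obtain ⟨q, rfl⟩ := hc.exists_eq_range hne
  rw [biUnion_range] at hs
  have hD : ∀ j, MeasurableSet (disjointed (fun j => (a.ch (q j)).source) j) :=
    MeasurableSet.disjointed fun j => (a.ch (q j)).open_source.measurableSet
  refine ⟨Measure.sum fun j => (a.μ (q j)).restrict (disjointed (fun j => (a.ch (q j)).source) j), fun x => ?_⟩
  ext t ht
  have ht' := ht.inter (a.ch x).open_source.measurableSet
  rw [Measure.restrict_apply ht, Measure.sum_apply _ ht', ← a.μ_inter x ht]
  simp only [Measure.restrict_apply ht', fun j => a.μ_eq (q j) x (ht'.inter (hD j))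
    (inter_subset_right.trans (disjointed_subset _ j)) (inter_subset_left.trans inter_subset_right)]
  rw [← measure_iUnion (fun i j hij => (disjoint_disjointed _ hij).mono inter_subset_right inter_subset_right)
    fun j => ht'.inter (hD j), ← inter_iUnion, iUnion_disjointed, hs, inter_univ]

variable {a} {m : Measure M} (hm : ∀ x, m.restrict (a.ch x).source = a.μ x)
include hm

theorem m_apply (x : M) {s : Set M} (hs : MeasurableSet s) (h : s ⊆ (a.ch x).source) : m s =
    ∫⁻ y in (a.ch x).target, s.indicator 1 ((a.ch x).symm y) * ENNReal.ofReal (cρ (a.gm x) y) := by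
  rw [← a.μ_apply x hs, ← hm, Measure.restrict_apply hs, inter_eq_self_of_subset_left h]

theorem m_fin : IsFiniteMeasureOnCompacts m := by
  have : IsLocallyFiniteMeasure m := ⟨fun x => by
    obtain ⟨K, hK, hKU, hc⟩ := local_compact_nhds ((a.op x).mem_nhds (a.cmem x))
    have h1 := hc.image_of_continuousOn ((a.ch x).continuousOn_symm.mono hKU)
    have h2 := (a.ch x).symm.image_mem_nhds (a.cmem x) hK
    rw [a.symm_c] at h2
    refine ⟨_, h2, ?_⟩
    obtain ⟨C, hC⟩ := hc.exists_bound_of_continuousOn ((cρ_smooth (a.riem x)).continuousOn.mono hKU)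
    rw [m_apply hm x h1.isClosed.measurableSet (by rintro _ ⟨z, hz, rfl⟩; exact (a.ch x).map_target (hKU hz)),
      lint_sub (a.op x).measurableSet hc.isClosed.measurableSet hKU fun y hy hy' => by
        rw [indicator_of_notMem, zero_mul]
        rintro ⟨z, hz, e⟩
        exact hy' ((a.ch x).symm.injOn (hKU hz) hy e ▸ hz)]
    refine (setLIntegral_mono' (g := fun _ => ENNReal.ofReal C) hc.isClosed.measurableSet fun y hy => ?_).trans_lt ?_
    · rw [indicator_of_mem (mem_image_of_mem _ hy), Pi.one_apply, one_mul]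
      exact ENNReal.ofReal_le_ofReal ((le_abs_self _).trans (hC y hy))
    · rw [setLIntegral_const]
      exact ENNReal.mul_lt_top ENNReal.ofReal_lt_top hc.measure_lt_top⟩
  infer_instance

theorem m_pos : m.IsOpenPosMeasure := by
  refine ⟨fun O hO ⟨x, hx⟩ h0 => ?_⟩
  have hW : IsOpen ((a.ch x).target ∩ (a.ch x).symm ⁻¹' O) := (a.ch x).isOpen_inter_preimage_symm hO
  have h1 := measure_mono_null (inter_subset_left (t := (a.ch x).source)) h0
  rw [m_apply hm x (hO.inter (a.ch x).open_source).measurableSet inter_subset_right,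
    lint_sub (a.op x).measurableSet hW.measurableSet inter_subset_left fun y _ hy => by
      rw [indicator_of_notMem fun h1 => hy ⟨‹_›, h1.1⟩, zero_mul],
    setLIntegral_congr_fun hW.measurableSet (g := fun y => ENNReal.ofReal (cρ (a.gm x) y)) fun y hy => by
      simp only [indicator_of_mem (show _ ∈ O ∩ _ from ⟨hy.2, (a.ch x).map_target hy.1⟩), Pi.one_apply, one_mul],
    lintegral_eq_zero_iff' ((a.aem_ρ x).mono_set inter_subset_left)] at h1
  refine (hW.measure_pos volume ⟨_, a.cmem x, by rwa [mem_preimage, a.symm_c]⟩).ne' ?_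
  rw [← Measure.restrict_apply_self, measure_eq_zero_iff_ae_notMem]
  filter_upwards [h1] with y hy h2
  exact (ENNReal.ofReal_pos.2 (cρ_pos (a.riem x) h2.1)).ne' hy

theorem int_m (x : M) {φ : M → ℝ} (hφ : Continuous φ) (h0 : ∀ z, z ∉ (a.ch x).source → φ z = 0) :
    ∫ z, φ z ∂m = ∫ y in (a.ch x).target, cρ (a.gm x) y * a.hat x φ y := by
  rw [← a.int_μ x hφ, ← hm, setIntegral_eq_integral_of_forall_compl_eq_zero h0]

omit hm in
theorem Γ_zero {f : M → ℝ} (g : M → ℝ) {z : M} (h : z ∉ tsupport f) : a.Γ f g z = 0 := by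
  rw [Γ_c, cΓ_congr (hat_congr (notMem_tsupport_iff_eventuallyEq.1 h)) EventuallyEq.rfl, cΓ,
    show dv (a.hat z 0) (a.ch z z) = 0 from funext fun i => pd_const 0, zero_dotProduct]

theorem ibp_loc {f g : M → ℝ} (hf : a.S f) (hg : a.S g) (hc : HasCompactSupport f) {x : M}
    (hx : tsupport f ⊆ (a.ch x).source) : ∫ z, (a.Γ f g z + f z * a.Δ g z) ∂m = 0 := by
  rw [int_m hm x (φ := fun z => a.Γ f g z + f z * a.Δ g z) ((S.cont (Sm.Γ isOpen_univ hf hg)).add (hf.cont.mul (S.cont (Sm.Δ isOpen_univ hg))))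
    fun z hz => by
      rw [Γ_zero g fun h => hz (hx h), image_eq_zero_of_notMem_tsupport fun h => hz (hx h), zero_mul, add_zero],
    ← ibp_coord (a.riem x) (hf.hat x) (hg.hat x) (hc.isCompact.image_of_continuousOn ((a.ch x).continuousOn.mono hx))
      (by rintro _ ⟨z, hz, rfl⟩; exact (a.ch x).map_source (hx hz))
      fun y hy h => image_eq_zero_of_notMem_tsupport (f := f) fun h1 => h ⟨_, h1, (a.ch x).right_inv hy⟩]
  refine setIntegral_congr_fun (a.op x).measurableSet fun y hy => ?_
  simp only [← Γ_ch hf hg x hy, ← Δ_ch hg x hy, hat]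

omit hm in
theorem exists_bump (x : M) : ∃ β : M → ℝ, a.S β ∧ tsupport β ⊆ (a.ch x).source ∧ ∀ᶠ z in 𝓝 x, β z = 1 := by
  obtain ⟨r, hr, hb⟩ := nhds_basis_closedBall.mem_iff.1 ((a.op x).mem_nhds (a.cmem x))
  let φ : ContDiffBump (a.ch x x) := ⟨r / 2, r, half_pos hr, half_lt_self hr⟩
  have hs : tsupport φ ⊆ (a.ch x).target := by rw [φ.tsupport_eq]; exact hb
  refine ⟨_, S_ext x φ.contDiff φ.hasCompactSupport hs, ?_, ?_⟩
  · refine (closure_minimal (fun z hz => ?_) (φ.hasCompactSupport.isCompact.image_of_continuousOn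
      ((a.ch x).continuousOn_symm.mono hs)).isClosed).trans ?_
    · obtain ⟨h1, h2⟩ := indicator_apply_ne_zero.1 hz
      exact ⟨_, subset_tsupport _ h2, (a.ch x).left_inv h1⟩
    · rintro _ ⟨z, hz, rfl⟩
      exact (a.ch x).map_target (hs hz)
  · filter_upwards [(a.ch x).open_source.mem_nhds (a.mem x),
      ((a.ch x).continuousAt (a.mem x)).eventually φ.eventuallyEq_one] with z h1 h2
    rw [indicator_of_mem h1, h2, Pi.one_apply]

theorem ibp {f g : M → ℝ} (hf : a.S f) (hg : a.S g) (hc : HasCompactSupport f) :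
    ∫ z, a.Γ f g z ∂m = -∫ z, f z * a.Δ g z ∂m := by
  classical
  have := m_fin hm
  have i1 : ∀ {f}, a.S f → HasCompactSupport f → Integrable (a.Γ f g) m := fun hf hc =>
    (S.cont (Sm.Γ isOpen_univ hf hg)).integrable_of_hasCompactSupport
      (HasCompactSupport.intro hc.isCompact fun z hz => Γ_zero g hz)
  have i2 : ∀ {f}, a.S f → HasCompactSupport f → Integrable (fun z => f z * a.Δ g z) m := fun hf hc =>
    (hf.cont.mul (S.cont (Sm.Δ isOpen_univ hg))).integrable_of_hasCompactSupport hc.mul_right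
  rw [eq_neg_iff_add_eq_zero, ← integral_add (i1 hf hc) (i2 hf hc)]
  choose β h1 h2 h3 using exists_bump (a := a)
  obtain ⟨s, -, hs⟩ := hc.isCompact.elim_nhds_subcover (fun x => {z | β x z = 1}) fun x _ => h3 x
  replace hs : ∀ z, f z ≠ 0 → ∃ x ∈ s, β x z = 1 := fun z hz => by simpa using hs (subset_tsupport _ hz)
  induction s using Finset.induction_on generalizing f with
  | empty =>
    have : f = fun _ => 0 := funext fun z => by simpa using hs z
    simp [this, Γ_zero]
  | insert x s hx ih =>
    have s1 : a.S fun z => β x z * f z := Sm.mul (h1 x) hf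
    have s2 : a.S fun z => (1 - β x z) * f z := fun y => (contDiffOn_const.sub (h1 x y)).mul (hf y)
    have c1 : HasCompactSupport fun z => β x z * f z := hc.mul_left
    have c2 : HasCompactSupport fun z => (1 - β x z) * f z := hc.mul_left
    have e1 := ibp_loc hm s1 hg c1 ((tsupport_mul_subset_left (f := β x) (g := f)).trans (h2 x))
    have e2 := ih s2 c2 fun z hz => by
      obtain ⟨y, hy, e⟩ := hs z (right_ne_zero_of_mul hz)
      rcases Finset.mem_insert.1 hy with rfl | hy
      · simp [e] at hz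
      · exact ⟨y, hy, e⟩
    have e3 := integral_add (f := fun z => a.Γ (fun z => β x z * f z) g z + β x z * f z * a.Δ g z)
      (g := fun z => a.Γ (fun z => (1 - β x z) * f z) g z + (1 - β x z) * f z * a.Δ g z)
      ((i1 s1 c1).add (i2 s1 c1)) ((i1 s2 c2).add (i2 s2 c2))
    rw [e1, e2, add_zero] at e3
    rw [← e3]
    congr with z
    have e : f = fun z => β x z * f z + (1 - β x z) * f z := funext fun z => by ring
    have : a.Γ f g z = a.Γ (fun z => β x z * f z) g z + a.Γ (fun z => (1 - β x z) * f z) g z := by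
      rw [Γ, Γ, Γ, ← add_dotProduct, ← grad_add s1 s2, ← e]
    rw [this]
    ring

end Atl

end Crest.Agent.R247.A
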