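import Crest.Agent.R247.Defs

/-! # Row 247, block A: calculus of `pderiv` (helper70) -/

set_option autoImplicit false
set_option linter.unusedSectionVars false
set_option linter.unusedVariables false
open MeasureTheory Filter Set Metric Matrix
open scoped ENNReal NNReal Topology ContDiff
open Crest.GeometryTopology.CoordMetric

noncomputable section
namespace Crest.Agent.R247.A

variable {n : ℕ} {U : Set (E n)} {f h : E n → ℝ} {y : E n} {i j : Fin n}

theorem two_le : (2 : WithTop ℕ∞) ≤ ((⊤ : ℕ∞) : WithTop ℕ∞) := WithTop.coe_le_coe.2 (le_top : (2 : ℕ∞) ≤ ⊤)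

theorem dfa {X Y : Type} [NormedAddCommGroup X] [NormedSpace ℝ X] [NormedAddCommGroup Y] [NormedSpace ℝ Y]
    {U : Set X} {F : X → Y} {y : X} (hU : IsOpen U) (hF : ContDiffOn ℝ ∞ F U) (hy : y ∈ U) :
    DifferentiableAt ℝ F y :=
  (hF.contDiffAt (hU.mem_nhds hy)).differentiableAt (by simp)

theorem pd_smooth (hU : IsOpen U) (hf : ContDiffOn ℝ ∞ f U) (i : Fin n) : ContDiffOn ℝ ∞ (pderiv i f) U :=
  (hf.fderiv_of_isOpen hU (by simp)).clm_apply contDiffOn_const

theorem pd_congr_ev (e : f =ᶠ[𝓝 y] h) (i : Fin n) : pderiv i f =ᶠ[𝓝 y] pderiv i h := by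
  filter_upwards [e.fderiv (𝕜 := ℝ)] with z hz
  rw [pderiv, pderiv, hz]

theorem pd_congr (hU : IsOpen U) (hy : y ∈ U) (e : ∀ z ∈ U, f z = h z) (i : Fin n) :
    pderiv i f y = pderiv i h y :=
  (pd_congr_ev (eventually_of_mem (hU.mem_nhds hy) e) i).self_of_nhds

theorem pd_const (c : ℝ) : pderiv i (fun _ => c) y = 0 := by simp [pderiv]

theorem pd_add (hf : DifferentiableAt ℝ f y) (hh : DifferentiableAt ℝ h y) :
    pderiv i (fun z => f z + h z) y = pderiv i f y + pderiv i h y := by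
  simp [pderiv, fderiv_fun_add hf hh]

theorem pd_mul (hf : DifferentiableAt ℝ f y) (hh : DifferentiableAt ℝ h y) :
    pderiv i (fun z => f z * h z) y = pderiv i f y * h y + f y * pderiv i h y := by
  simp [pderiv, fderiv_fun_mul hf hh]
  ring

theorem pd_sum {ι : Type} (s : Finset ι) {F : ι → E n → ℝ} (hF : ∀ a, DifferentiableAt ℝ (F a) y) :
    pderiv i (fun z => ∑ a ∈ s, F a z) y = ∑ a ∈ s, pderiv i (F a) y := by
  simp [pderiv, fderiv_fun_sum fun a _ => hF a]

theorem pd_comp {φ : ℝ → ℝ} {c : ℝ} (hf : DifferentiableAt ℝ f y) (hφ : HasDerivAt φ c (f y)) :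
    pderiv i (fun z => φ (f z)) y = c * pderiv i f y :=
  congrArg (fun L : E n →L[ℝ] ℝ => L (EuclideanSpace.single i 1)) (hφ.comp_hasFDerivAt y hf.hasFDerivAt).fderiv

theorem pd_comm (hf : ContDiffAt ℝ 2 f y) (i j : Fin n) : pderiv i (pderiv j f) y = pderiv j (pderiv i f) y := by
  have hd : DifferentiableAt ℝ (fderiv ℝ f) y :=
    (hf.fderiv_right (m := 1) (by norm_num)).differentiableAt one_ne_zero
  have e : ∀ i j, pderiv i (pderiv j f) y =
      fderiv ℝ (fderiv ℝ f) y (EuclideanSpace.single i 1) (EuclideanSpace.single j 1) := fun i j => by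
    have := (hd.hasFDerivAt.clm_apply (hasFDerivAt_const (EuclideanSpace.single j (1 : ℝ)) y)).fderiv
    rw [pderiv, show pderiv j f = fun z => fderiv ℝ f z (EuclideanSpace.single j 1) from rfl, this]
    simp
  rw [e, e]
  exact hf.isSymmSndFDerivAt (by simp) _ _

theorem clm_sum {Y : Type} [NormedAddCommGroup Y] [NormedSpace ℝ Y] (L : E n →L[ℝ] Y) (v : E n) :
    L v = ∑ a, v a • L (EuclideanSpace.single a 1) := by
  have e : v = ∑ i, v i • EuclideanSpace.single i (1 : ℝ) := by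
    simpa using ((EuclideanSpace.basisFun (Fin n) ℝ).sum_repr v).symm
  conv_lhs => rw [e]
  simp only [map_sum, map_smul]

theorem pd_proj {τ : E n → E n} (hτ : DifferentiableAt ℝ τ y) (i a : Fin n) :
    pderiv i (fun z => τ z a) y = fderiv ℝ τ y (EuclideanSpace.single i 1) a :=
  congrArg (fun L : E n →L[ℝ] ℝ => L (EuclideanSpace.single i 1))
    ((EuclideanSpace.proj (𝕜 := ℝ) a).hasFDerivAt.comp y hτ.hasFDerivAt).fderiv

theorem pd_coord (i a : Fin n) : pderiv i (fun z : E n => z a) y = (Pi.single a 1 : V n) i := by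
  rw [pd_proj (τ := fun z => z) differentiableAt_id]
  simp [Pi.single_apply, eq_comm]

theorem pd_chain {τ : E n → E n} (hτ : DifferentiableAt ℝ τ y) (hf : DifferentiableAt ℝ f (τ y)) :
    pderiv i (fun z => f (τ z)) y = ∑ a, pderiv i (fun z => τ z a) y * pderiv a f (τ y) := by
  have := (hf.hasFDerivAt.comp y hτ.hasFDerivAt).fderiv
  rw [pderiv, show (fun z => f (τ z)) = f ∘ τ from rfl, this, ContinuousLinearMap.comp_apply, clm_sum]
  simp only [pd_proj hτ, smul_eq_mul]
  rfl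

theorem pd_line (hf : DifferentiableAt ℝ f y) (i : Fin n) :
    HasDerivAt (fun t : ℝ => f (y + t • EuclideanSpace.single i 1)) (pderiv i f y) 0 :=
  hf.hasFDerivAt.hasLineDerivAt _

/-- entrywise partial derivative of a matrix field -/
def dM (k : Fin n) (A : E n → Mat n) (y : E n) : Mat n := Matrix.of fun i j => pderiv k (fun z => A z i j) y

theorem det_smooth {X : Type} [NormedAddCommGroup X] [NormedSpace ℝ X] {A : X → Mat n} {U : Set X}
    (h : ∀ i j, ContDiffOn ℝ ∞ (fun x => A x i j) U) : ContDiffOn ℝ ∞ (fun x => (A x).det) U := by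
  simp only [Matrix.det_apply']
  exact ContDiffOn.sum fun σ _ => contDiffOn_const.mul (contDiffOn_prod fun i _ => h _ _)

/-- Jacobi's formula (copied from `R72/Deriv`). -/
theorem hasDerivAt_det {X : ℝ → Mat n} {X' : Mat n} {r : ℝ}
    (h : ∀ i j, HasDerivAt (fun s => X s i j) (X' i j) r) :
    HasDerivAt (fun s => (X s).det) ((adjugate (X r) * X').trace) r := by
  have h1 : HasDerivAt
      (fun s => ∑ σ : Equiv.Perm (Fin n), ((Equiv.Perm.sign σ : ℤ) : ℝ) * ∏ i, X s (σ i) i)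
      (∑ σ : Equiv.Perm (Fin n), ((Equiv.Perm.sign σ : ℤ) : ℝ) *
        ∑ i, (∏ j ∈ Finset.univ.erase i, X r (σ j) j) • X' (σ i) i) r :=
    HasDerivAt.fun_sum fun σ _ =>
      (HasDerivAt.fun_finsetProd (f := fun i s => X s (σ i) i) fun i _ => h (σ i) i).const_mul _
  have h2 : (adjugate (X r) * X').trace = ∑ σ : Equiv.Perm (Fin n), ((Equiv.Perm.sign σ : ℤ) : ℝ) *
      ∑ i, (∏ j ∈ Finset.univ.erase i, X r (σ j) j) • X' (σ i) i := by
    simp only [Finset.mul_sum]
    rw [Finset.sum_comm]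
    refine Finset.sum_congr rfl fun i _ => ?_
    have h3 : (adjugate (X r) * X').diag i = cramer (X r) (fun k => X' k i) i := by
      rw [cramer_eq_adjugate_mulVec]
      rfl
    rw [h3, cramer_apply, det_apply']
    refine Finset.sum_congr rfl fun σ _ => ?_
    congr 1
    rw [← Finset.mul_prod_erase _ _ (Finset.mem_univ i), updateCol_self, smul_eq_mul, mul_comm]
    congr 1
    exact Finset.prod_congr rfl fun j hj => updateCol_ne (Finset.mem_erase.1 hj).1
  rw [h2]
  simpa only [det_apply'] using h1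

theorem pd_det {A : E n → Mat n} (hU : IsOpen U) (hA : ∀ i j, ContDiffOn ℝ ∞ (fun x => A x i j) U) (hy : y ∈ U)
    (h0 : (A y).det ≠ 0) (k : Fin n) :
    pderiv k (fun z => (A z).det) y = (A y).det * ((A y)⁻¹ * dM k A y).trace := by
  have h1 := hasDerivAt_det (X := fun t : ℝ => A (y + t • EuclideanSpace.single k 1)) (X' := dM k A y)
    fun i j => pd_line (dfa hU (hA i j) hy) k
  rw [(pd_line (dfa hU (det_smooth hA) hy) k).unique h1, inv_def, Ring.inverse_eq_inv', smul_mul_assoc, trace_smul,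
    smul_eq_mul, ← mul_assoc, mul_inv_cancel₀ h0, one_mul, zero_smul, add_zero]

theorem dM_mul {A B : E n → Mat n} (hA : ∀ i j, DifferentiableAt ℝ (fun x => A x i j) y)
    (hB : ∀ i j, DifferentiableAt ℝ (fun x => B x i j) y) (k : Fin n) :
    dM k (fun z => A z * B z) y = dM k A y * B y + A y * dM k B y := by
  ext i j
  simp only [dM, of_apply, Matrix.add_apply, mul_apply, ← Finset.sum_add_distrib]
  rw [pd_sum _ fun a => (hA i a).fun_mul (hB a j)]
  exact Finset.sum_congr rfl fun a _ => pd_mul (hA i a) (hB a j)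

/-- a smooth function on `U` vanishing outside a compact subset: the integral of a partial derivative vanishes -/
theorem integral_pd (hU : IsOpen U) (hf : ContDiffOn ℝ ∞ f U) {K : Set (E n)} (hK : IsCompact K) (hKU : K ⊆ U)
    (h0 : ∀ z ∈ U, z ∉ K → f z = 0) (i : Fin n) :
    IntegrableOn (pderiv i f) U ∧ ∫ z in U, pderiv i f z = 0 := by
  set F := U.indicator f with hF
  have hz : ∀ z, z ∉ K → F z = 0 := fun z hz => by
    by_cases h : z ∈ U
    · rw [hF, indicator_of_mem h, h0 z h hz]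
    · exact indicator_of_notMem h _
  have hc : HasCompactSupport F := HasCompactSupport.intro hK hz
  have e1 : ∀ z ∈ U, F =ᶠ[𝓝 z] f := fun z h => eventually_of_mem (hU.mem_nhds h) fun w hw => indicator_of_mem hw _
  have e2 : ∀ z, z ∉ K → F =ᶠ[𝓝 z] fun _ => 0 := fun z h =>
    eventually_of_mem (hK.isClosed.isOpen_compl.mem_nhds h) hz
  have hs : ContDiff ℝ ∞ F := contDiff_iff_contDiffAt.2 fun z => by
    by_cases h : z ∈ U
    · exact (hf.contDiffAt (hU.mem_nhds h)).congr_of_eventuallyEq (e1 z h)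
    · exact contDiffAt_const.congr_of_eventuallyEq (e2 z fun h' => h (hKU h'))
  have hi : Integrable (pderiv i F) := by
    refine Continuous.integrable_of_hasCompactSupport ?_ (HasCompactSupport.intro hK fun z h => ?_)
    · exact continuousOn_univ.1 (pd_smooth isOpen_univ hs.contDiffOn i).continuousOn
    · rw [(pd_congr_ev (e2 z h) i).self_of_nhds, pd_const]
  have e3 : EqOn (pderiv i F) (pderiv i f) U := fun z h => (pd_congr_ev (e1 z h) i).self_of_nhds
  refine ⟨hi.integrableOn.congr_fun e3 hU.measurableSet, ?_⟩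
  rw [← setIntegral_congr_fun hU.measurableSet e3, setIntegral_eq_integral_of_forall_compl_eq_zero fun z h => by
    rw [(pd_congr_ev (e2 z fun h' => h (hKU h')) i).self_of_nhds, pd_const]]
  have := integral_mul_fderiv_eq_neg_fderiv_mul_of_integrable (μ := volume) (f := fun _ : E n => (1 : ℝ)) (g := F)
    (v := EuclideanSpace.single i 1) (by simp) (by simp only [one_mul]; exact hi)
    (by simpa using hs.continuous.integrable_of_hasCompactSupport hc) (fun _ _ => differentiableAt_const _)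
    fun z _ => hs.differentiable (by simp) z
  simpa [pderiv] using this

/-! ### parameters -/

section par
variable {I : Set ℝ} {Φ : ℝ × E n → ℝ} {t : ℝ}

theorem par_slice (hΦ : ContDiffOn ℝ ∞ Φ (I ×ˢ U)) (ht : t ∈ I) : ContDiffOn ℝ ∞ (fun z => Φ (t, z)) U :=
  hΦ.comp (contDiff_prodMk_right t).contDiffOn fun z hz => ⟨ht, hz⟩

theorem par_pd_eq {p : ℝ × E n} (hΦ : DifferentiableAt ℝ Φ p) (i : Fin n) :
    pderiv i (fun z => Φ (p.1, z)) p.2 = fderiv ℝ Φ p (0, EuclideanSpace.single i 1) := by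
  have := (HasFDerivAt.comp (f := fun z : E n => (p.1, z)) p.2 hΦ.hasFDerivAt
    (hasFDerivAt_prodMk_right p.1 p.2)).fderiv
  exact congrArg (fun L : E n →L[ℝ] ℝ => L (EuclideanSpace.single i 1)) this

theorem par_dt_at {p : ℝ × E n} (hΦ : DifferentiableAt ℝ Φ p) :
    HasDerivAt (fun s => Φ (s, p.2)) (fderiv ℝ Φ p (1, 0)) p.1 :=
  hΦ.hasFDerivAt.comp_hasDerivAt p.1 ((hasDerivAt_id p.1).prodMk (hasDerivAt_const p.1 p.2))

theorem par_pd (hI : IsOpen I) (hU : IsOpen U) (hΦ : ContDiffOn ℝ ∞ Φ (I ×ˢ U)) (i : Fin n) :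
    ContDiffOn ℝ ∞ (fun p : ℝ × E n => pderiv i (fun z => Φ (p.1, z)) p.2) (I ×ˢ U) :=
  ((hΦ.fderiv_of_isOpen (hI.prod hU) (by simp)).clm_apply contDiffOn_const).congr fun p hp =>
    par_pd_eq (dfa (hI.prod hU) hΦ hp) i

theorem par_dt (hI : IsOpen I) (hU : IsOpen U) (hΦ : ContDiffOn ℝ ∞ Φ (I ×ˢ U)) :
    ContDiffOn ℝ ∞ (fun p : ℝ × E n => deriv (fun s => Φ (s, p.2)) p.1) (I ×ˢ U) :=
  ((hΦ.fderiv_of_isOpen (hI.prod hU) (by simp)).clm_apply contDiffOn_const).congr fun p hp =>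
    (par_dt_at (dfa (hI.prod hU) hΦ hp)).deriv

theorem par_comm (hI : IsOpen I) (hU : IsOpen U) (hΦ : ContDiffOn ℝ ∞ Φ (I ×ˢ U)) (ht : t ∈ I) (hy : y ∈ U)
    (i : Fin n) : HasDerivAt (fun s => pderiv i (fun z => Φ (s, z)) y)
      (pderiv i (fun z => deriv (fun s => Φ (s, z)) t) y) t := by
  have hW := hI.prod hU
  have hp : (t, y) ∈ I ×ˢ U := ⟨ht, hy⟩
  have hd : DifferentiableAt ℝ (fderiv ℝ Φ) (t, y) := dfa hW (hΦ.fderiv_of_isOpen hW (by simp)) hp
  have e : ∀ v w, fderiv ℝ (fun p => fderiv ℝ Φ p w) (t, y) v = fderiv ℝ (fderiv ℝ Φ) (t, y) v w := fun v w => by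
    rw [(hd.hasFDerivAt.clm_apply (hasFDerivAt_const w (t, y))).fderiv]
    simp
  have h1 := par_dt_at (p := (t, y)) (hd.clm_apply (differentiableAt_const (0, EuclideanSpace.single i (1 : ℝ))))
  have h2 := par_pd_eq (p := (t, y)) (hd.clm_apply (differentiableAt_const ((1 : ℝ), (0 : E n)))) i
  rw [e] at h1 h2
  rw [pd_congr hU hy (h := fun z => fderiv ℝ Φ (t, z) (1, 0))
    fun z hz => (par_dt_at (p := (t, z)) (dfa hW hΦ ⟨ht, hz⟩)).deriv, h2,
    ((hΦ.contDiffAt (hW.mem_nhds hp)).isSymmSndFDerivAt (by simpa using two_le)).eq]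
  refine h1.congr_of_eventuallyEq ?_
  filter_upwards [hI.mem_nhds ht] with s hs using par_pd_eq (p := (s, y)) (dfa hW hΦ ⟨hs, hy⟩) i

end par

end Crest.Agent.R247.A
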